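import Mathlib

/-!
P365: recurrence of the square lattice (test functions of small Dirichlet energy).
-/

namespace Vale.Agent.P365

open Finset Filter Topology

noncomputable section

/-- adjacency of the square lattice -/
def adj (a b : ℤ × ℤ) : ℝ := if |a.1 - b.1| + |a.2 - b.2| = 1 then 1 else 0

theorem adj_eq (a b : ℤ × ℤ) : adj a b = (if b = (a.1 + 1, a.2) then 1 else 0) +
    (if b = (a.1 - 1, a.2) then 1 else 0) + (if b = (a.1, a.2 + 1) then 1 else 0) +
    (if b = (a.1, a.2 - 1) then 1 else 0) := by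
  obtain ⟨a1, a2⟩ := a
  obtain ⟨b1, b2⟩ := b
  simp only [adj, Prod.mk.injEq, Int.abs_eq_natAbs]
  split_ifs <;> first | omega | norm_num

theorem adj_symm (a b : ℤ × ℤ) : adj a b = adj b a := by
  simp only [adj, abs_sub_comm a.1, abs_sub_comm a.2]

theorem sum_adj_le (a : ℤ × ℤ) (T : Finset (ℤ × ℤ)) : ∑ b ∈ T, adj a b ≤ 4 := by
  simp only [adj_eq, Finset.sum_add_distrib, Finset.sum_ite_eq']
  split_ifs <;> norm_num

def Hm (n : ℕ) : ℝ := ∑ i ∈ range n, 1 / ((i : ℝ) + 1)

def rho (o a : ℤ × ℤ) : ℕ := (a.1 - o.1).natAbs + (a.2 - o.2).natAbs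

theorem card_rho (o : ℤ × ℤ) (T : Finset (ℤ × ℤ)) (r : ℕ) :
    (T.filter fun a => rho o a = r).card ≤ 4 * (r + 1) := by
  have h1 : (T.filter fun a => rho o a = r).card ≤
      (Finset.Icc (-(r : ℤ)) r ×ˢ (Finset.univ : Finset Bool)).card := by
    refine Finset.card_le_card_of_injOn (fun a => (a.1 - o.1, decide (o.2 ≤ a.2))) ?_ ?_
    · intro a ha
      replace ha := (mem_filter.1 (mem_coe.1 ha)).2
      unfold rho at ha
      simp only [coe_product, coe_Icc, coe_univ, Set.mem_prod, Set.mem_Icc, Set.mem_univ, and_true]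
      omega
    · intro a ha b hb hab
      replace ha := (mem_filter.1 (mem_coe.1 ha)).2
      replace hb := (mem_filter.1 (mem_coe.1 hb)).2
      unfold rho at ha hb
      simp only [Prod.mk.injEq, decide_eq_decide] at hab
      refine Prod.ext ?_ ?_ <;> omega
  rw [card_product, Int.card_Icc, card_univ, Fintype.card_bool] at h1
  omega

theorem Hm_step (L r r' : ℕ) (h1 : r' ≤ r + 1) (h2 : r ≤ r' + 1) :
    (Hm (min r L) - Hm (min r' L)) ^ 2 ≤ if r ≤ L then (2 / ((r : ℝ) + 1)) ^ 2 else 0 := by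
  have h0 : (0 : ℝ) ≤ if r ≤ L then (2 / ((r : ℝ) + 1)) ^ 2 else 0 := by split_ifs <;> positivity
  by_cases he : min r L = min r' L
  · rw [he, sub_self]; simpa using h0
  have hr : (0 : ℝ) ≤ r' := Nat.cast_nonneg _
  rcases (show r' = r + 1 ∨ r = r' + 1 by omega) with rfl | rfl
  · rw [if_pos (by omega), min_eq_left (by omega), min_eq_left (by omega), Hm, Hm, sum_range_succ,
      sub_add_cancel_left, neg_sq]
    gcongr; norm_num
  · rw [if_pos (by omega), min_eq_left (by omega), min_eq_left (by omega), Hm, Hm, sum_range_succ,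
      add_sub_cancel_left]
    refine pow_le_pow_left₀ (by positivity) ?_ 2
    rw [div_le_div_iff₀ (by positivity) (by positivity)]
    push_cast; linarith

theorem exists_cap {δ : ℝ} (hδ : 0 < δ) : ∃ n : ℕ, ∀ o : ℤ × ℤ, ∃ (f : ℤ × ℤ → ℝ)
    (S : Finset (ℤ × ℤ)), S.card ≤ n ∧ f o = 1 ∧ (∀ a ∉ S, f a = 0) ∧
    ∀ T : Finset (ℤ × ℤ), ∑ a ∈ T, ∑ b ∈ T, (adj a b * (f b - f a)) ^ 2 ≤ δ := by
  obtain ⟨L, hL⟩ := (Real.tendsto_sum_range_one_div_nat_succ_atTop.eventually_ge_atTop
    (max 1 (128 / δ))).exists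
  have hH1 : 1 ≤ Hm L := (le_max_left _ _).trans hL
  have hH2 : 128 / δ ≤ Hm L := (le_max_right _ _).trans hL
  have hH0 : 0 < Hm L := by linarith
  refine ⟨(2 * L + 1) * (2 * L + 1), fun o => ⟨fun a => (Hm L - Hm (min (rho o a) L)) / Hm L,
    Finset.Icc (o.1 - L) (o.1 + L) ×ˢ Finset.Icc (o.2 - L) (o.2 + L), ?_, ?_, fun a ha => ?_,
    fun T => ?_⟩⟩
  · rw [card_product, Int.card_Icc, Int.card_Icc]
    exact Nat.mul_le_mul (by omega) (by omega)
  · have : Hm 0 = 0 := by simp [Hm]
    simp [rho, this, hH0.ne']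
  · simp only [mem_product, mem_Icc] at ha
    have : min (rho o a) L = L := by unfold rho; omega
    simp [this]
  set w : ℕ → ℝ := fun r => if r ≤ L then (2 / ((r : ℝ) + 1)) ^ 2 else 0 with hw
  have hw0 : ∀ r, 0 ≤ w r := fun r => by simp only [hw]; split_ifs <;> positivity
  have h1 : ∀ a b, (adj a b * ((Hm L - Hm (min (rho o b) L)) / Hm L -
      (Hm L - Hm (min (rho o a) L)) / Hm L)) ^ 2 ≤ adj a b * (w (rho o a) / Hm L ^ 2) := by
    intro a b
    unfold adj
    split_ifs with h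
    · rw [one_mul, one_mul, ← sub_div, div_pow, sub_sub_sub_cancel_left]
      rw [Int.abs_eq_natAbs, Int.abs_eq_natAbs] at h
      exact div_le_div_of_nonneg_right (Hm_step L _ _ (by unfold rho; omega)
        (by unfold rho; omega)) (sq_nonneg _)
    · simp
  have h2 : ∑ a ∈ T, w (rho o a) ≤ 32 * Hm L := by
    have h3 : ∑ a ∈ T, w (rho o a) = ∑ a ∈ T.filter (fun a => rho o a ∈ range (L + 1)),
        w (rho o a) := by
      rw [sum_filter]
      refine Finset.sum_congr rfl fun a _ => ?_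
      split_ifs with h
      · rfl
      · simp only [hw]; rw [if_neg (by rw [mem_range] at h; omega)]
    rw [h3, ← Finset.sum_fiberwise_of_maps_to (t := range (L + 1)) (g := rho o)
      (fun a ha => (mem_filter.1 ha).2)]
    have h4 : ∀ r ∈ range (L + 1), ∑ a ∈ (T.filter (fun a => rho o a ∈ range (L + 1))).filter
        (fun a => rho o a = r), w (rho o a) ≤ 16 * (1 / ((r : ℝ) + 1)) := fun r hr => by
      rw [Finset.sum_congr rfl (g := fun _ => w r) (fun a ha => by rw [(mem_filter.1 ha).2]),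
        sum_const, nsmul_eq_mul]
      have h5 : (((T.filter (fun a => rho o a ∈ range (L + 1))).filter
          (fun a => rho o a = r)).card : ℝ) ≤ 4 * ((r : ℝ) + 1) := by
        exact_mod_cast card_rho o _ r
      refine (mul_le_mul_of_nonneg_right h5 (hw0 r)).trans (le_of_eq ?_)
      simp only [hw]
      rw [if_pos (by rw [mem_range] at hr; omega)]
      field_simp; ring
    refine (Finset.sum_le_sum h4).trans ?_
    rw [← Finset.mul_sum, sum_range_succ]
    have h6 : 1 / ((L : ℝ) + 1) ≤ 1 := by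
      rw [div_le_one (by positivity)]; linarith [Nat.cast_nonneg (α := ℝ) L]
    unfold Hm at hH1 ⊢
    linarith
  refine (Finset.sum_le_sum fun a _ => (Finset.sum_le_sum fun b _ => h1 a b).trans
    (b := _) (c := 4 * (w (rho o a) / Hm L ^ 2)) ?_).trans ?_
  · rw [← Finset.sum_mul]
    exact mul_le_mul_of_nonneg_right (sum_adj_le a T) (div_nonneg (hw0 _) (sq_nonneg _))
  · rw [← Finset.mul_sum, ← Finset.sum_div, ← mul_div_assoc, div_le_iff₀ (by positivity)]
    rw [div_le_iff₀ hδ] at hH2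
    nlinarith [mul_le_mul_of_nonneg_left hH2 hH0.le]

end

end Vale.Agent.P365
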