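import Vale.Agent.P365.Lin

/-!
P365: the quadratic form is nonpositive on rank-one increments; the Cauchy mean value formula.
-/

namespace Vale.Agent.P365

open Matrix Finset MeasureTheory ProbabilityTheory Filter Topology
open scoped NNReal

noncomputable section

section alg

variable {ι : Type} [Fintype ι]

theorem qf_vec (K : Matrix ι ι ℝ) (x y u v : ι → ℝ) :
    qf K (vecMulVec x y) (vecMulVec u v) = (y ⬝ᵥ K *ᵥ u) * (x ⬝ᵥ K *ᵥ v) := by
  rw [qf, mul_vecMulVec Kᵀ, vecMulVec_mul, vecMulVec_mul_vecMulVec, trace_vecMulVec,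
    mulVec_transpose, dotProduct_smul, smul_eq_mul, dotProduct_mulVec, dotProduct_mulVec]

theorem anti_dot {K : Matrix ι ι ℝ} (hK : Kᵀ = -K) (x y : ι → ℝ) :
    x ⬝ᵥ K *ᵥ y = -(y ⬝ᵥ K *ᵥ x) := by
  rw [dotProduct_mulVec, ← mulVec_transpose, hK, neg_mulVec, neg_dotProduct, dotProduct_comm]

/-- the increment `Im (τ ψ ψᵀ)` -/
def inc (τ : ℂ) (ψ : ι → ℂ) : Matrix ι ι ℝ := fun a b => (τ * (ψ a * ψ b)).im

theorem qf_inc {K : Matrix ι ι ℝ} (hK : Kᵀ = -K) (τ : ℂ) (ψ : ι → ℂ) :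
    qf K (inc τ ψ) (inc τ ψ) ≤ 0 := by
  set α : ι → ℝ := fun a => (ψ a).re
  set β : ι → ℝ := fun a => (ψ a).im
  have h1 : inc τ ψ = τ.re • (vecMulVec α β + vecMulVec β α) +
      τ.im • (vecMulVec α α - vecMulVec β β) := by
    ext a b
    simp only [inc, α, β, Matrix.add_apply, Matrix.smul_apply, Matrix.sub_apply, vecMulVec_apply,
      smul_eq_mul, Complex.mul_im, Complex.mul_re]
  have h2 : α ⬝ᵥ K *ᵥ α = 0 := by linarith [anti_dot hK α α]
  have h3 : β ⬝ᵥ K *ᵥ β = 0 := by linarith [anti_dot hK β β]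
  have h4 := anti_dot hK β α
  have h5 := qf_vec K
  simp only [qf] at h5
  rw [h1]
  simp only [qf, Matrix.mul_add, Matrix.add_mul, Matrix.mul_sub, Matrix.sub_mul, Matrix.mul_smul,
    Matrix.smul_mul, trace_add, trace_sub, trace_smul, smul_eq_mul, h5, h2, h3, h4]
  nlinarith [mul_nonneg (sq_nonneg τ.re) (sq_nonneg (α ⬝ᵥ K *ᵥ β)),
    mul_nonneg (sq_nonneg τ.im) (sq_nonneg (α ⬝ᵥ K *ᵥ β))]

theorem trace_inc (C : Matrix ι ι ℝ) (τ : ℂ) (ψ : ι → ℂ) :
    trace (C * inc τ ψ) = (τ * ∑ a, ∑ b, (C a b : ℂ) * (ψ b * ψ a)).im := by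
  simp only [trace, diag_apply, mul_apply, inc, Finset.mul_sum, Complex.im_sum]
  refine Finset.sum_congr rfl fun a _ => Finset.sum_congr rfl fun b _ => ?_
  rw [mul_left_comm τ (C a b : ℂ), Complex.im_ofReal_mul]

/-- the Lyapunov functional -/
def Psi (K C A : Matrix ι ι ℝ) : ℝ := qf K A A + trace (C * A)

theorem Psi_step {K : Matrix ι ι ℝ} (hK : Kᵀ = -K) (C A : Matrix ι ι ℝ) (ψ : ι → ℂ) :
    ∃ c : ℂ, ∀ τ : ℂ, Psi K C (A - inc τ ψ) ≤ Psi K C A - (τ * c).im := by
  refine ⟨∑ a, ∑ b, ((Kᵀ * A * K + K * A * Kᵀ + C) a b : ℂ) * (ψ b * ψ a), fun τ => ?_⟩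
  rw [← trace_inc]
  have h1 := qf_inc hK τ ψ
  have h2 : trace (Kᵀ * inc τ ψ * K * A) = trace (K * A * Kᵀ * inc τ ψ) := by
    rw [Matrix.mul_assoc (Kᵀ * inc τ ψ), trace_mul_comm, ← Matrix.mul_assoc]
  simp only [Psi, qf, Matrix.mul_sub, Matrix.sub_mul, trace_sub, Matrix.add_mul, trace_add] at h1 ⊢
  linarith

end alg

theorem tendsto_inv_sub (b : ℂ) {l : Filter ℝ} (hl : Tendsto (fun t : ℝ => |t|) l atTop) :
    Tendsto (fun t : ℝ => ((t : ℂ) - b)⁻¹) l (𝓝 0) := by
  rw [tendsto_zero_iff_norm_tendsto_zero]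
  simp only [norm_inv]
  refine tendsto_inv_atTop_zero.comp (tendsto_atTop_mono (fun t => ?_)
    (tendsto_atTop_add_const_right l (-‖b‖) hl))
  have := norm_sub_norm_le (t : ℂ) b
  rw [Complex.norm_real, Real.norm_eq_abs] at this
  linarith

theorem ne_of_im {b : ℂ} (hb : 0 < b.im) (t : ℝ) : (t : ℂ) - b ≠ 0 := fun h => by
  have := congrArg Complex.im h
  simp only [Complex.sub_im, Complex.ofReal_im, Complex.zero_im] at this
  linarith

theorem integral_two_poles {a b : ℂ} (ha : 0 < a.im) (hb : 0 < b.im)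
    (hi : Integrable fun t : ℝ => (((t : ℂ) - a) * ((t : ℂ) - b))⁻¹) :
    ∫ t : ℝ, (((t : ℂ) - a) * ((t : ℂ) - b))⁻¹ = 0 := by
  have hd : ∀ (c : ℂ) (t : ℝ), HasDerivAt (fun t : ℝ => (t : ℂ) - c) 1 t := fun c t => by
    simpa using (Complex.ofRealCLM.hasDerivAt (x := t)).sub_const c
  by_cases hab : a = b
  · subst hab
    have h1 := integral_of_hasDerivAt_of_tendsto (f := fun t : ℝ => -((t : ℂ) - a)⁻¹)
      (fun t => ?_) hi (tendsto_inv_sub a tendsto_abs_atBot_atTop).neg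
      (tendsto_inv_sub a tendsto_abs_atTop_atTop).neg
    · simpa using h1
    · have h2 := ((hd a t).inv (ne_of_im ha t)).neg
      have e : -(-1 / ((t : ℂ) - a) ^ 2) = (((t : ℂ) - a) * ((t : ℂ) - a))⁻¹ := by
        rw [sq]; field_simp
      rw [← e]; exact h2
  · have hab' : a - b ≠ 0 := sub_ne_zero.2 hab
    have hlim : ∀ l : Filter ℝ, Tendsto (fun t : ℝ => |t|) l atTop →
        Tendsto (fun t : ℝ => Complex.log (((t : ℂ) - a) / ((t : ℂ) - b)) / (a - b)) l (𝓝 0) := by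
      intro l hl
      have h1 : Tendsto (fun t : ℝ => ((t : ℂ) - a) / ((t : ℂ) - b)) l (𝓝 1) := by
        have h2 := ((tendsto_inv_sub b hl).const_mul (b - a)).const_add 1
        rw [mul_zero, add_zero] at h2
        refine h2.congr fun t => ?_
        have := ne_of_im hb t
        field_simp; ring
      have h3 := ((continuousAt_clog Complex.one_mem_slitPlane).tendsto.comp h1).div_const (a - b)
      rw [Complex.log_one, zero_div] at h3
      exact h3
    have h1 := integral_of_hasDerivAt_of_tendsto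
      (f := fun t : ℝ => Complex.log (((t : ℂ) - a) / ((t : ℂ) - b)) / (a - b))
      (fun t => ?_) hi (hlim _ tendsto_abs_atBot_atTop) (hlim _ tendsto_abs_atTop_atTop)
    · simpa using h1
    · have n1 := ne_of_im ha t
      have n2 := ne_of_im hb t
      have hs : ((t : ℂ) - a) / ((t : ℂ) - b) ∈ Complex.slitPlane := by
        rw [Complex.mem_slitPlane_iff]
        by_contra h
        push Not at h
        have h3 : (t : ℂ) - a = ((t : ℂ) - a) / ((t : ℂ) - b) * ((t : ℂ) - b) := by field_simp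
        have h4 := congrArg Complex.im h3
        rw [Complex.mul_im, h.2] at h4
        simp only [Complex.sub_im, Complex.ofReal_im] at h4
        nlinarith [h.1]
      have h2 := (((hd a t).div (hd b t) n2).clog_real hs).div_const (a - b)
      have e : (1 * ((t : ℂ) - b) - ((t : ℂ) - a) * 1) / ((t : ℂ) - b) ^ 2 /
          (((t : ℂ) - a) / ((t : ℂ) - b)) / (a - b) = (((t : ℂ) - a) * ((t : ℂ) - b))⁻¹ := by
        field_simp; ring
      rw [← e]; exact h2

theorem cauchy_mean {γ : ℝ≥0} (hγ : γ ≠ 0) {p : ℂ} (hp : 0 < p.im) :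
    Integrable (fun t : ℝ => ((t : ℂ) + γ * Complex.I) / ((t : ℂ) - p)) (cauchyMeasure 0 γ) ∧
    ∫ t : ℝ, ((t : ℂ) + γ * Complex.I) / ((t : ℂ) - p) ∂(cauchyMeasure 0 γ) = 0 := by
  have hγ' : (0 : ℝ) < γ := by positivity
  have h1 : Integrable (fun t : ℝ => ((t : ℂ) + γ * Complex.I) / ((t : ℂ) - p))
      (cauchyMeasure 0 γ) := by
    refine Integrable.of_bound (C := 1 + ‖p + γ * Complex.I‖ / p.im)
      (Measurable.aestronglyMeasurable (by fun_prop)) (Eventually.of_forall fun t => ?_)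
    have n1 := ne_of_im hp t
    have e : ((t : ℂ) + γ * Complex.I) / ((t : ℂ) - p) =
        1 + (p + γ * Complex.I) / ((t : ℂ) - p) := by field_simp; ring
    rw [e]
    refine (norm_add_le _ _).trans ?_
    rw [norm_one, norm_div]
    have h2 : p.im ≤ ‖(t : ℂ) - p‖ := by
      have := Complex.abs_im_le_norm ((t : ℂ) - p)
      simp only [Complex.sub_im, Complex.ofReal_im, zero_sub, abs_neg, abs_of_pos hp] at this
      exact this
    gcongr
  refine ⟨h1, ?_⟩
  have ha : 0 < ((γ : ℝ) * Complex.I).im := by simpa using hγ'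
  have e : ∀ t : ℝ, (cauchyPDF 0 γ t).toReal • (((t : ℂ) + γ * Complex.I) / ((t : ℂ) - p)) =
      ((Real.pi⁻¹ * γ : ℝ) : ℂ) * (((t : ℂ) - (γ : ℝ) * Complex.I) * ((t : ℂ) - p))⁻¹ := fun t => by
    rw [cauchyPDF_def, ENNReal.toReal_ofReal (cauchyPDF_pos 0 hγ t).le, cauchyPDFReal_def,
      Complex.real_smul]
    have n1 := ne_of_im hp t
    have n2 := ne_of_im ha t
    have n3 : ((t : ℂ) + (γ : ℝ) * Complex.I) ≠ 0 := fun h => by
      have := congrArg Complex.im h
      simp at this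
      exact hγ this
    have e2 : (((t - 0) ^ 2 + (γ : ℝ) ^ 2 : ℝ) : ℂ) =
        ((t : ℂ) - (γ : ℝ) * Complex.I) * ((t : ℂ) + (γ : ℝ) * Complex.I) := by
      push_cast
      linear_combination ((γ : ℝ) : ℂ) ^ 2 * Complex.I_sq
    rw [Complex.ofReal_mul, Complex.ofReal_inv, e2]
    field_simp
  rw [cauchyMeasure_of_scale_ne_zero 0 hγ] at h1 ⊢
  rw [integrable_withDensity_iff_integrable_smul' (measurable_cauchyPDF 0 γ)
    (Eventually.of_forall fun _ => ENNReal.ofReal_lt_top)] at h1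
  rw [integral_withDensity_eq_integral_toReal_smul (measurable_cauchyPDF 0 γ)
    (Eventually.of_forall fun _ => ENNReal.ofReal_lt_top)]
  simp only [e] at h1 ⊢
  rw [integral_const_mul, integral_two_poles ha hp, mul_zero]
  have hc : ((Real.pi⁻¹ * γ : ℝ) : ℂ) ≠ 0 := by
    rw [Complex.ofReal_ne_zero]; have := Real.pi_pos; positivity
  exact (integrable_const_mul_iff (isUnit_iff_ne_zero.2 hc) _).1 h1

end

end Vale.Agent.P365
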