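import Mathlib

/-!
P365: the discrete Schroedinger operator on the square lattice and its spectral measures.
-/

namespace Vale.Agent.P365

open MeasureTheory

/-- nearest-neighbour hopping on `ℤ²` -/
def hop (u : ℤ × ℤ → ℂ) (x : ℤ × ℤ) : ℂ :=
  u (x.1 + 1, x.2) + u (x.1 - 1, x.2) + u (x.1, x.2 + 1) + u (x.1, x.2 - 1)

/-- `μ` is the spectral measure of the vector `ψ` for `H = hop + V`: a finite measure whose
Stieltjes transform is `⟨ψ, (H - z)⁻¹ ψ⟩` for all `z` in the upper half-plane. -/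
def IsSpectralMeasure (V : ℤ × ℤ → ℝ) (ψ : ℤ × ℤ → ℂ) (μ : Measure ℝ) : Prop :=
  IsFiniteMeasure μ ∧ ∀ z : ℂ, 0 < z.im → ∃ u : ℤ × ℤ → ℂ, Summable (fun x => ‖u x‖ ^ 2) ∧
    (∀ x, hop u x + (V x : ℂ) * u x - z * u x = ψ x) ∧
    ∑' x, (starRingEnd ℂ) (ψ x) * u x = ∫ t : ℝ, 1 / ((t : ℂ) - z) ∂μ

end Vale.Agent.P365
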