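import Vale.Agent.P365.Cau

/-!
P365: revealing the Cauchy variables one by one, `Psi (Im G)` is a supermartingale.
-/

namespace Vale.Agent.P365

open Matrix Finset MeasureTheory ProbabilityTheory Filter Topology
open scoped NNReal ENNReal

noncomputable section

variable {ι : Type} [Fintype ι] [DecidableEq ι] {H : Matrix ι ι ℝ}

theorem meas_G (H : Matrix ι ι ℝ) (a b : ι) : Measurable fun d : ι → ℂ => Gx H d a b := by
  have h1 : Continuous fun d : ι → ℂ => Mx H d :=
    continuous_const.add (Continuous.matrix_diagonal continuous_id)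
  have h2 : Measurable fun d : ι → ℂ => (Mx H d).det := h1.matrix_det.measurable
  have h3 : Measurable fun d : ι → ℂ => (Mx H d).adjugate a b :=
    (h1.matrix_adjugate.matrix_elem a b).measurable
  simp only [Gx, Matrix.inv_def, Matrix.smul_apply, smul_eq_mul, Ring.inverse_eq_inv']
  exact h2.inv.mul h3

theorem meas_Psi (H K C : Matrix ι ι ℝ) : Measurable fun d : ι → ℂ => Psi K C (Ax H d) := by
  have h1 : Continuous fun A : Matrix ι ι ℝ => Psi K C A :=
    (((continuous_const.matrix_mul continuous_id).matrix_mul continuous_const).matrix_mul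
      continuous_id).matrix_trace.add (continuous_const.matrix_mul continuous_id).matrix_trace
  have h2 : Continuous fun A : ι → ι → ℝ => Psi K C A := h1
  have h3 : Measurable fun (d : ι → ℂ) (a b : ι) => (Gx H d a b).im :=
    measurable_pi_lambda _ fun a => measurable_pi_lambda _ fun b =>
      Complex.measurable_im.comp (meas_G H a b)
  exact h2.measurable.comp h3

/-- sites in `R` carry their random potential, the other ones the absorption `γ` -/
def dR (d0 : ι → ℂ) (γ : ℝ) (R : Finset ι) (v : ι → ℝ) : ι → ℂ :=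
  fun a => d0 a + if a ∈ R then (v a : ℂ) else -(γ * Complex.I)

omit [Fintype ι] in
theorem dR_im {d0 : ι → ℂ} (hd : ∀ a, (d0 a).im < 0) {γ : ℝ} (hγ : 0 ≤ γ) (R : Finset ι)
    (v : ι → ℝ) (a : ι) : (dR d0 γ R v a).im < 0 := by
  have := hd a
  by_cases h : a ∈ R <;> simp [dR, h] <;> linarith

omit [Fintype ι] in
theorem meas_dR (d0 : ι → ℂ) (γ : ℝ) (R : Finset ι) : Measurable (dR d0 γ R) := by
  refine measurable_pi_lambda _ fun a => ?_
  by_cases h : a ∈ R <;> simp only [dR, h, if_true, if_false] <;> fun_prop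

theorem trace_diag (c : ι → ℝ) (A : Matrix ι ι ℝ) : trace (diagonal c * A) = ∑ a, c a * A a a := by
  simp only [trace, diag_apply, diagonal_mul]

theorem Psi_nonneg (hH : H.IsSymm) {d : ι → ℂ} (hd : ∀ a, (d a).im < 0) (K : Matrix ι ι ℝ)
    {c : ι → ℝ} (hc : ∀ a, 0 ≤ c a) : 0 ≤ Psi K (diagonal c) (Ax H d) := by
  refine add_nonneg (qf_nonneg hH hd K) ?_
  rw [trace_diag]
  refine Finset.sum_nonneg fun a _ => mul_nonneg (hc a) (le_trans ?_ (im_diag_ge hH hd a a))
  exact mul_nonneg (by linarith [hd a]) (sq_nonneg _)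

theorem mart_step (hH : H.IsSymm) {d0 : ι → ℂ} (hd : ∀ a, (d0 a).im < 0) {γ : ℝ≥0} (hγ : γ ≠ 0)
    {K : Matrix ι ι ℝ} (hK : Kᵀ = -K) {c : ι → ℝ} (hc : ∀ a, 0 ≤ c a) {R : Finset ι} {w : ι}
    (hw : w ∉ R) (v : ι → ℝ) :
    ∫⁻ t, ENNReal.ofReal (Psi K (diagonal c)
      (Ax H (dR d0 γ (insert w R) (Function.update v w t)))) ∂(cauchyMeasure 0 γ) ≤
      ENNReal.ofReal (Psi K (diagonal c) (Ax H (dR d0 γ R v))) := by
  set d := dR d0 γ R v with hddef
  have hd' : ∀ a, (d a).im < 0 := dR_im hd γ.2 R v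
  have hdw : d w = d0 w - γ * Complex.I := by simp [hddef, dR, hw, sub_eq_add_neg]
  set g := Gx H d w w with hg
  have hg0 : g ≠ 0 := diag_ne_zero hH hd' w
  have hp : 0 < (-(γ * Complex.I) - g⁻¹).im := by
    have h1 := im_diag_ge hH hd' w w
    have h2 : 0 < Complex.normSq g := Complex.normSq_pos.2 hg0
    rw [← hg, ← Complex.normSq_eq_norm_sq, ← le_div_iff₀ h2, hdw] at h1
    have h3 := hd w
    simp only [Complex.sub_im, Complex.neg_im, Complex.mul_im, Complex.ofReal_re, Complex.I_im,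
      Complex.ofReal_im, Complex.I_re, Complex.inv_im, neg_div] at h1 ⊢
    linarith
  obtain ⟨hi, h0⟩ := cauchy_mean hγ hp
  obtain ⟨k, hk⟩ := Psi_step hK (diagonal c) (Ax H d) (fun a => Gx H d a w)
  have key : ∀ t : ℝ, Psi K (diagonal c)
      (Ax H (dR d0 γ (insert w R) (Function.update v w t))) ≤ Psi K (diagonal c) (Ax H d) -
      (((t : ℂ) + γ * Complex.I) / ((t : ℂ) - (-(γ * Complex.I) - g⁻¹)) * (g⁻¹ * k)).im := by
    intro t
    have e1 : dR d0 γ (insert w R) (Function.update v w t) =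
        Function.update d w (d w + ((t : ℂ) + γ * Complex.I)) := by
      funext a
      by_cases h : a = w
      · subst h; simp [dR, hdw]
      · simp [dR, h, hddef]
    obtain ⟨n1, h1⟩ := update_G hH hd' w ((t : ℂ) + γ * Complex.I) (by
      rw [hdw]; simpa using hd w)
    have e2 : Ax H (Function.update d w (d w + ((t : ℂ) + γ * Complex.I))) = Ax H d -
        inc (((t : ℂ) + γ * Complex.I) / (1 + ((t : ℂ) + γ * Complex.I) * g))
          (fun a => Gx H d a w) := by
      ext a b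
      simp only [Ax, map_apply, Matrix.sub_apply, inc, h1, Complex.sub_im, hg]
    rw [e1, e2]
    refine (hk _).trans (le_of_eq ?_)
    have n2 := ne_of_im hp t
    have e3 : 1 + ((t : ℂ) + γ * Complex.I) * g = ((t : ℂ) - (-(γ * Complex.I) - g⁻¹)) * g := by
      field_simp; ring
    rw [e3, ← mul_assoc, div_mul_eq_div_div, div_eq_mul_inv _ g]
  have hi2 := hi.mul_const (g⁻¹ * k)
  have hi4 : Integrable (fun t : ℝ =>
      (((t : ℂ) + γ * Complex.I) / ((t : ℂ) - (-(γ * Complex.I) - g⁻¹)) * (g⁻¹ * k)).im)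
      (cauchyMeasure 0 γ) := hi2.im
  have hi3 : Integrable (fun t : ℝ => Psi K (diagonal c) (Ax H d) -
      (((t : ℂ) + γ * Complex.I) / ((t : ℂ) - (-(γ * Complex.I) - g⁻¹)) * (g⁻¹ * k)).im)
      (cauchyMeasure 0 γ) := (integrable_const _).sub hi4
  refine (lintegral_mono fun t => ENNReal.ofReal_le_ofReal (key t)).trans (le_of_eq ?_)
  rw [← ofReal_integral_eq_lintegral_ofReal hi3 (Eventually.of_forall fun t =>
    (Psi_nonneg hH (dR_im hd γ.2 _ _) K hc).trans (key t)),
    integral_sub (integrable_const _) hi4]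
  have h4 := integral_im hi2
  rw [integral_mul_const, h0, zero_mul, map_zero] at h4
  simp only [RCLike.im_to_complex] at h4
  rw [h4]
  simp

theorem mart_le (hH : H.IsSymm) {d0 : ι → ℂ} (hd : ∀ a, (d0 a).im < 0) {γ : ℝ≥0} (hγ : γ ≠ 0)
    {K : Matrix ι ι ℝ} (hK : Kᵀ = -K) {c : ι → ℝ} (hc : ∀ a, 0 ≤ c a) (R : Finset ι) :
    ∫⁻ v, ENNReal.ofReal (Psi K (diagonal c) (Ax H (dR d0 γ R v)))
      ∂(Measure.pi fun _ : ι => cauchyMeasure 0 γ) ≤
      ENNReal.ofReal (Psi K (diagonal c) (Ax H (dR d0 γ ∅ 0))) := by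
  have hm : ∀ R : Finset ι, Measurable fun v : ι → ℝ =>
      ENNReal.ofReal (Psi K (diagonal c) (Ax H (dR d0 γ R v))) := fun R =>
    ((meas_Psi H K _).comp (meas_dR d0 γ R)).ennreal_ofReal
  induction R using Finset.induction_on with
  | empty =>
    have : ∀ v, dR d0 γ ∅ v = dR d0 γ ∅ 0 := fun v => by funext a; simp [dR]
    simp only [this]
    simp
  | insert w R hw ih =>
    refine le_trans (lintegral_le_of_lmarginal_le {w} (hm _) (hm _) ?_) ih
    rw [lmarginal_singleton, lmarginal_singleton]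
    intro v
    have : ∀ t, dR d0 γ R (Function.update v w t) = dR d0 γ R v := fun t => by
      funext a
      by_cases h : a ∈ R
      · have : a ≠ w := fun e => hw (e ▸ h)
        simp [dR, this]
      · simp [dR, h]
    simp only [this, lintegral_const, measure_univ, mul_one]
    exact mart_step hH hd hγ hK hc hw v

theorem min_le_Psi (hH : H.IsSymm) {d : ι → ℂ} {η ε : ℝ} (hη : 0 < η) (hε : 0 < ε)
    (hd : ∀ a, (d a).im = -η) (o : ι) {f : ι → ℝ} (hf : f o = 1) {S : Finset ι}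
    (hS : ∀ a ∉ S, f a = 0) :
    min 1 (Gx H d o o).im ≤ 2 / ε * Psi (Kf H f)
      (diagonal fun a => (if a ∈ S then η else 0) + if a = o then ε ^ 2 else 0)
      (Ax H (Function.update d o (d o + -(ε * Complex.I)))) := by
  have hd0 : ∀ a, (d a).im < 0 := fun a => by rw [hd a]; linarith
  set d' := Function.update d o (d o + -(ε * Complex.I)) with hd'
  have hγ : ∀ a, -(d' a).im = η + if a = o then ε else 0 := fun a => by
    by_cases h : a = o
    · subst h; simp [hd', hd]; ring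
    · simp [hd', h, hd]
  have hγ1 : ∀ a, η ≤ -(d' a).im := fun a => by rw [hγ]; split_ifs <;> linarith
  have hγ2 : ε ≤ -(d' o).im := by rw [hγ, if_pos rfl]; linarith
  have hd1 : ∀ a, (d' a).im < 0 := fun a => by linarith [hγ1 a]
  obtain ⟨n1, h1⟩ := update_G hH hd0 o (-(ε * Complex.I)) (by simp [hd]; linarith)
  set g := Gx H d o o with hg
  have h2 : Gx H d' o o * (1 + -(ε * Complex.I) * g) = g := by
    rw [h1 o o, ← hg, sub_mul, mul_right_comm, div_mul_cancel₀ _ n1]; ring
  set g' := Gx H d' o o with hg'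
  set n := Complex.normSq (1 + -(ε * Complex.I) * g) with hn
  have hn0 : 0 < n := Complex.normSq_pos.2 n1
  have h3 : ‖g'‖ ^ 2 * n = Complex.normSq g := by
    rw [← Complex.normSq_eq_norm_sq, hn, ← map_mul, h2]
  have h4 : g'.im * n = g.im + ε * Complex.normSq g := by
    have h5 : g' * (n : ℂ) = g * (starRingEnd ℂ) (1 + -(ε * Complex.I) * g) := by
      rw [hn, ← Complex.mul_conj, ← mul_assoc, h2]
    have h6 := congrArg Complex.im h5
    rw [Complex.mul_im, Complex.ofReal_re, Complex.ofReal_im, mul_zero, zero_add] at h6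
    rw [h6, Complex.normSq_apply]
    simp
    ring
  have h5 : n ≤ 2 + 2 * (ε ^ 2 * Complex.normSq g) := by
    rw [hn, Complex.normSq_apply, Complex.normSq_apply]
    simp
    nlinarith [sq_nonneg (1 - ε * g.im), sq_nonneg (ε * g.re)]
  have h6 : g'.im = η * ∑ a, ‖Gx H d' a o‖ ^ 2 + ε * ‖g'‖ ^ 2 := by
    rw [hg', ← ward_diag hH hd1 o]
    simp only [hγ, add_mul, Finset.sum_add_distrib, Finset.mul_sum, ite_mul, zero_mul,
      Finset.sum_ite_eq', Finset.mem_univ, if_true]
  set x := η * ∑ a, ‖Gx H d' a o‖ ^ 2 with hx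
  have h7 : x * n = g.im := by nlinarith
  have h8 : min 1 g.im ≤ 2 * x + 2 * (ε ^ 2 * ‖g'‖ ^ 2) := by
    refine le_of_mul_le_mul_right ?_ hn0
    have a1 := min_le_left 1 g.im
    have a2 := min_le_right 1 g.im
    have a3 : 0 ≤ min 1 g.im := le_min zero_le_one (by rw [← h7]; positivity)
    have a4 : 0 ≤ ε ^ 2 * Complex.normSq g := mul_nonneg (sq_nonneg _) (Complex.normSq_nonneg _)
    have a5 := mul_le_mul_of_nonneg_left h5 a3
    have a6 := mul_le_mul_of_nonneg_right a1 a4
    have a7 : (2 * x + 2 * (ε ^ 2 * ‖g'‖ ^ 2)) * n = 2 * g.im + 2 * (ε ^ 2 * Complex.normSq g) := by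
      rw [← h7, ← h3]; ring
    nlinarith
  have h9 : ε * x ≤ qf (Kf H f) (Ax H d') (Ax H d') +
      ∑ a, (if a ∈ S then η else 0) * (Gx H d' a a).im := by
    refine le_trans ?_ (add_le_add_left (qf_ge hH hd1 f o) _)
    rw [hx, Finset.mul_sum, Finset.mul_sum, ← Finset.sum_add_distrib]
    refine Finset.sum_le_sum fun a _ => ?_
    have b0 := sq_nonneg ‖Gx H d' a o‖
    by_cases h : a ∈ S
    · have b1 := im_diag_ge hH hd1 o a
      rw [G_symm hH d' o a] at b1
      have b2 := mul_le_mul_of_nonneg_right hγ2 b0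
      have b3 : 0 ≤ -(d' a).im * -(d' o).im * ((f a - f o) ^ 2 * ‖Gx H d' a o‖ ^ 2) :=
        mul_nonneg (mul_nonneg (by linarith [hd1 a]) (by linarith)) (by positivity)
      rw [if_pos h]
      nlinarith [mul_le_mul_of_nonneg_left (b2.trans b1) hη.le]
    · rw [if_neg h, hS a h, hf]
      have b1 : η * ε ≤ -(d' a).im * -(d' o).im :=
        mul_le_mul (hγ1 a) hγ2 hε.le (by linarith [hd1 a])
      nlinarith [mul_le_mul_of_nonneg_right b1 b0]
  have h10 : ε * ‖g'‖ ^ 2 ≤ g'.im := by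
    have : 0 ≤ x := by positivity
    linarith
  rw [Psi, trace_diag]
  have h11 : ∑ a, ((if a ∈ S then η else 0) + if a = o then ε ^ 2 else 0) * Ax H d' a a =
      ∑ a, (if a ∈ S then η else 0) * (Gx H d' a a).im + ε ^ 2 * g'.im := by
    simp only [add_mul, Finset.sum_add_distrib, Ax, map_apply, hg']
    simp
  rw [h11, div_mul_eq_mul_div, le_div_iff₀ hε]
  nlinarith [mul_le_mul_of_nonneg_left h8 hε.le, mul_le_mul_of_nonneg_left h10 (sq_nonneg ε)]

theorem expect_le (hH : H.IsSymm) (W : ι → ℝ) {γ : ℝ≥0} (hγ : γ ≠ 0) (E : ℝ) {η ε : ℝ}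
    (hη : 0 < η) (hε : 0 < ε) (o : ι) {f : ι → ℝ} (hf : f o = 1) {S : Finset ι}
    (hS : ∀ a ∉ S, f a = 0) :
    ∫⁻ v, ENNReal.ofReal (min 1 (Gx H (fun a => ((W a + v a : ℝ) : ℂ) - (E + η * Complex.I)) o o).im)
      ∂(Measure.pi fun _ : ι => cauchyMeasure 0 γ) ≤
      ENNReal.ofReal (2 / ε * ((∑ a, ∑ b, Kf H f a b ^ 2) / γ ^ 2 + (η * S.card + ε ^ 2) / γ)) := by
  have hγ' : (0 : ℝ) < γ := by positivity
  set d0 : ι → ℂ := fun a => (W a : ℂ) - (E + η * Complex.I) +
    if a = o then -(ε * Complex.I) else 0 with hd0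
  have hd : ∀ a, (d0 a).im < 0 := fun a => by
    by_cases h : a = o <;> simp [hd0, h] <;> linarith
  set c : ι → ℝ := fun a => (if a ∈ S then η else 0) + if a = o then ε ^ 2 else 0 with hc
  have hc0 : ∀ a, 0 ≤ c a := fun a => by
    simp only [hc]; split_ifs <;> positivity
  have h1 := mart_le hH hd hγ (Kf_anti hH f) hc0 Finset.univ
  have h2 : ∀ v : ι → ℝ, ENNReal.ofReal
      (min 1 (Gx H (fun a => ((W a + v a : ℝ) : ℂ) - (E + η * Complex.I)) o o).im) ≤
      ENNReal.ofReal (2 / ε) *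
        ENNReal.ofReal (Psi (Kf H f) (diagonal c) (Ax H (dR d0 γ Finset.univ v))) := fun v => by
    rw [← ENNReal.ofReal_mul (by positivity)]
    refine ENNReal.ofReal_le_ofReal ((min_le_Psi hH hη hε (fun a => by simp) o hf hS).trans
      (le_of_eq ?_))
    refine congrArg (fun d => 2 / ε * Psi (Kf H f) (diagonal c) (Ax H d)) (funext fun a => ?_)
    by_cases h : a = o
    · subst h; simp [dR, hd0]; ring
    · simp [dR, hd0, h]; ring
  refine (lintegral_mono h2).trans ?_
  rw [lintegral_const_mul' _ _ ENNReal.ofReal_ne_top, ENNReal.ofReal_mul (by positivity)]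
  refine mul_le_mul_right (h1.trans (ENNReal.ofReal_le_ofReal ?_)) _
  have h3 : ∀ a, (dR d0 γ ∅ 0 a).im ≤ -γ := fun a => by
    have := hd a
    simp [dR]; linarith
  refine add_le_add (qf_le hH hγ' h3 _) ?_
  rw [trace_diag]
  refine (Finset.sum_le_sum fun a _ => mul_le_mul_of_nonneg_left
    (im_diag_le hH hγ' h3 a) (hc0 a)).trans (le_of_eq ?_)
  rw [← Finset.sum_mul, mul_one_div]
  simp [hc, Finset.sum_add_distrib, mul_comm]

end

end Vale.Agent.P365
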