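import Vale.Agent.P365.Lin

/-!
P365: a criterion for singular measures through Poisson integrals, and the total mass of the
Poisson integral of a finite-volume spectral measure.
-/

namespace Vale.Agent.P365

open Matrix MeasureTheory ProbabilityTheory Filter Topology Set Metric
open scoped NNReal ENNReal

noncomputable section

theorem im_kernel (t E η : ℝ) :
    (1 / ((t : ℂ) - (E + η * Complex.I))).im = η / ((t - E) ^ 2 + η ^ 2) := by
  rw [one_div, Complex.inv_im, Complex.normSq_apply]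
  simp
  ring

theorem kernel_int (μ : Measure ℝ) [IsFiniteMeasure μ] (E : ℝ) {η : ℝ} (hη : 0 < η) :
    Integrable (fun t : ℝ => 1 / ((t : ℂ) - (E + η * Complex.I))) μ := by
  refine Integrable.of_bound (C := 1 / η) (Measurable.aestronglyMeasurable (by fun_prop))
    (Eventually.of_forall fun t => ?_)
  rw [norm_div, norm_one]
  refine one_div_le_one_div_of_le hη ?_
  have := Complex.abs_im_le_norm ((t : ℂ) - (E + η * Complex.I))
  simpa [abs_of_pos hη] using this

theorem ball_le_poisson (μ : Measure ℝ) [IsFiniteMeasure μ] (E : ℝ) {η : ℝ} (hη : 0 < η) :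
    μ (closedBall E η) / volume (closedBall E η) ≤
      ENNReal.ofReal (∫ t : ℝ, 1 / ((t : ℂ) - (E + η * Complex.I)) ∂μ).im := by
  have hi := kernel_int μ E hη
  have h1 := integral_im hi
  simp only [RCLike.im_to_complex] at h1
  have hi' : Integrable (fun t : ℝ => (1 / ((t : ℂ) - (E + η * Complex.I))).im) μ := hi.im
  rw [← h1]
  simp only [im_kernel] at hi' ⊢
  have h2 : ∫ _t in closedBall E η, 1 / (2 * η) ∂μ ≤ ∫ t, η / ((t - E) ^ 2 + η ^ 2) ∂μ := by
    refine le_trans (setIntegral_mono_on (integrable_const _) hi'.integrableOn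
      measurableSet_closedBall fun t ht => ?_)
      (setIntegral_le_integral hi' (Eventually.of_forall fun t => by positivity))
    rw [mem_closedBall, Real.dist_eq] at ht
    rw [div_le_div_iff₀ (by positivity) (by positivity)]
    nlinarith [sq_abs (t - E), abs_nonneg (t - E)]
  refine le_trans (le_of_eq ?_) (ENNReal.ofReal_le_ofReal h2)
  rw [setIntegral_const, smul_eq_mul, mul_one_div, ENNReal.ofReal_div_of_pos (by positivity),
    Real.volume_closedBall, ofReal_measureReal]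

theorem sing_of_liminf (μ : Measure ℝ) [IsFiniteMeasure μ] {η : ℕ → ℝ} (hη : ∀ n, 0 < η n)
    (hη' : Tendsto η atTop (𝓝 0))
    (h : ∀ m : ℕ, liminf (fun n => ∫⁻ E in Icc (-(m : ℝ)) m, ENNReal.ofReal
      (min 1 (∫ t : ℝ, 1 / ((t : ℂ) - (E + η n * Complex.I)) ∂μ).im)) atTop = 0) :
    μ ⟂ₘ volume := by
  rw [← Measure.rnDeriv_eq_zero]
  have hl : Tendsto η atTop (𝓝[>] 0) :=
    tendsto_nhdsWithin_iff.2 ⟨hη', Eventually.of_forall hη⟩
  have hm : ∀ n, Measurable fun E : ℝ => ENNReal.ofReal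
      (min 1 (∫ t : ℝ, 1 / ((t : ℂ) - (E + η n * Complex.I)) ∂μ).im) := fun n => by
    refine (measurable_const.min (Complex.measurable_im.comp ?_)).ennreal_ofReal
    refine (StronglyMeasurable.integral_prod_right (ν := μ)
      (f := fun (E t : ℝ) => 1 / ((t : ℂ) - (E + η n * Complex.I))) ?_).measurable
    exact Measurable.stronglyMeasurable (by fun_prop)
  have h1 : ∀ᵐ E : ℝ, min 1 (μ.rnDeriv volume E) ≤ liminf (fun n => ENNReal.ofReal
      (min 1 (∫ t : ℝ, 1 / ((t : ℂ) - (E + η n * Complex.I)) ∂μ).im)) atTop := by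
    filter_upwards [Besicovitch.ae_tendsto_rnDeriv μ volume] with E hE
    rw [← ((tendsto_const_nhds (x := (1 : ℝ≥0∞))).min (hE.comp hl)).liminf_eq]
    refine liminf_le_liminf (Eventually.of_forall fun n => ?_)
    rw [ENNReal.ofReal_min, ENNReal.ofReal_one]
    exact min_le_min_left _ (ball_le_poisson μ E (hη n))
  have h2 : ∀ m : ℕ, ∀ᵐ E : ℝ, E ∈ Icc (-(m : ℝ)) m → μ.rnDeriv volume E = 0 := fun m => by
    rw [← ae_restrict_iff' measurableSet_Icc]
    have h3 : ∫⁻ E in Icc (-(m : ℝ)) m, min 1 (μ.rnDeriv volume E) = 0 :=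
      le_antisymm ((lintegral_mono_ae (ae_restrict_of_ae h1)).trans
        ((lintegral_liminf_le hm).trans (h m).le)) zero_le
    rw [lintegral_eq_zero_iff (measurable_const.min (Measure.measurable_rnDeriv _ _))] at h3
    filter_upwards [h3] with E hE
    simpa using hE
  filter_upwards [ae_all_iff.2 h2] with E hE
  obtain ⟨m, hm⟩ := exists_nat_ge |E|
  exact hE m (abs_le.1 hm)

theorem poisson_mass (x : ℝ) {η : ℝ} (hη : 0 < η) :
    ∫⁻ E : ℝ, ENNReal.ofReal (η / ((x - E) ^ 2 + η ^ 2)) = ENNReal.ofReal Real.pi := by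
  lift η to ℝ≥0 using hη.le
  have h1 := lintegral_cauchyPDF_eq_one x (γ := η) (fun h => by simp [h] at hη)
  have h2 : ∀ E : ℝ, ENNReal.ofReal (η / ((x - E) ^ 2 + η ^ 2)) =
      ENNReal.ofReal Real.pi * cauchyPDF x η E := fun E => by
    rw [cauchyPDF_def, ← ENNReal.ofReal_mul Real.pi_pos.le, cauchyPDFReal_def]
    have := Real.pi_pos
    refine congrArg _ ?_
    rw [show (E - x) ^ 2 = (x - E) ^ 2 by ring]
    field_simp
  simp only [h2]
  rw [lintegral_const_mul' _ _ ENNReal.ofReal_ne_top, h1, mul_one]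

variable {ι : Type} [Fintype ι] [DecidableEq ι] {H : Matrix ι ι ℝ}

theorem green_mass (hH : H.IsSymm) (V : ι → ℝ) {η : ℝ} (hη : 0 < η) (r : ι → ℂ) :
    ∫⁻ E : ℝ, ENNReal.ofReal
      (η * ∑ a, ‖(Gx H (fun a => (V a : ℂ) - (E + η * Complex.I)) *ᵥ r) a‖ ^ 2) =
      ENNReal.ofReal (Real.pi * ∑ a, ‖r a‖ ^ 2) := by
  have hB : (Mx H fun a => (V a : ℂ)).IsHermitian :=
    (herm_map hH).add (isHermitian_diagonal_of_self_adjoint _ (by
      funext a; simp))
  set b := hB.eigenvectorBasis with hb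
  have hn : ∀ x : ι → ℂ, ∑ j, ‖x ⬝ᵥ star (b j).ofLp‖ ^ 2 = ∑ a, ‖x a‖ ^ 2 := fun x => by
    have h1 := b.sum_sq_norm_inner_right (WithLp.toLp 2 x)
    rw [EuclideanSpace.norm_sq_eq] at h1
    exact h1
  have key : ∀ E : ℝ, η * ∑ a, ‖(Gx H (fun a => (V a : ℂ) - (E + η * Complex.I)) *ᵥ r) a‖ ^ 2 =
      ∑ j, ‖r ⬝ᵥ star (b j).ofLp‖ ^ 2 * (η / ((hB.eigenvalues j - E) ^ 2 + η ^ 2)) := fun E => by
    set u := Gx H (fun a => (V a : ℂ) - (E + η * Complex.I)) *ᵥ r with hu
    have h1 : r = (Mx H fun a => (V a : ℂ)) *ᵥ u - ((E : ℂ) + η * Complex.I) • u := by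
      have h2 : Mx H (fun a => (V a : ℂ) - (E + η * Complex.I)) *ᵥ u = r := by
        rw [hu, mulVec_mulVec, MG hH (fun a => by simpa using hη), one_mulVec]
      rw [← h2]
      funext a
      simp only [Mx, add_mulVec, Pi.add_apply, mulVec_diagonal, Pi.sub_apply, Pi.smul_apply,
        smul_eq_mul]
      ring
    rw [← hn u, Finset.mul_sum]
    refine Finset.sum_congr rfl fun j _ => ?_
    have h3 : (Mx H fun a => (V a : ℂ)) *ᵥ u ⬝ᵥ star (b j).ofLp =
        (hB.eigenvalues j : ℂ) * (u ⬝ᵥ star (b j).ofLp) := by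
      rw [dotProduct_comm, dotProduct_mulVec, ← star_star (vecMul _ _), star_vecMul, star_star,
        hB.eq, hb, hB.mulVec_eigenvectorBasis, star_smul, smul_dotProduct, dotProduct_comm]
      simp
    have h4 : r ⬝ᵥ star (b j).ofLp =
        ((hB.eigenvalues j : ℂ) - (E + η * Complex.I)) * (u ⬝ᵥ star (b j).ofLp) := by
      nth_rewrite 1 [h1]
      rw [sub_dotProduct, h3, smul_dotProduct, smul_eq_mul, sub_mul]
    have h5 : ‖(hB.eigenvalues j : ℂ) - (E + η * Complex.I)‖ ^ 2 =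
        (hB.eigenvalues j - E) ^ 2 + η ^ 2 := by
      rw [← Complex.normSq_eq_norm_sq, Complex.normSq_apply]
      simp
      ring
    rw [h4, norm_mul, mul_pow, h5]
    field_simp
  simp only [key]
  have h6 : ∀ E : ℝ, ENNReal.ofReal (∑ j, ‖r ⬝ᵥ star (b j).ofLp‖ ^ 2 *
      (η / ((hB.eigenvalues j - E) ^ 2 + η ^ 2))) = ∑ j, ENNReal.ofReal (‖r ⬝ᵥ star (b j).ofLp‖ ^ 2) *
      ENNReal.ofReal (η / ((hB.eigenvalues j - E) ^ 2 + η ^ 2)) := fun E => by
    rw [ENNReal.ofReal_sum_of_nonneg fun j _ => by positivity]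
    exact Finset.sum_congr rfl fun j _ => ENNReal.ofReal_mul (sq_nonneg _)
  simp only [h6]
  rw [lintegral_finsetSum _ fun j _ => by fun_prop, ← hn r, Finset.mul_sum,
    ENNReal.ofReal_sum_of_nonneg fun j _ => by have := Real.pi_pos; positivity]
  refine Finset.sum_congr rfl fun j _ => ?_
  rw [lintegral_const_mul' _ _ ENNReal.ofReal_ne_top, poisson_mass _ hη,
    ← ENNReal.ofReal_mul (sq_nonneg _), mul_comm]

end

end Vale.Agent.P365
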