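import Vale.Agent.P365.Defs
import Vale.Agent.P365.Meas
import Vale.Agent.P365.Cap
import Vale.Agent.P365.Mart

/-!
P365: comparison of the infinite-volume resolvent with finite boxes.
-/

namespace Vale.Agent.P365

open Matrix MeasureTheory Filter Topology
open scoped NNReal ENNReal

noncomputable section

def box (N : ℕ) : Finset (ℤ × ℤ) := Finset.Icc (-(N : ℤ)) N ×ˢ Finset.Icc (-(N : ℤ)) N

theorem box_mono : Monotone box := fun m n h a ha => by
  simp only [box, Finset.mem_product, Finset.mem_Icc] at ha ⊢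
  omega

theorem box_tendsto : Tendsto box atTop atTop :=
  tendsto_atTop_finset_of_monotone box_mono fun a => ⟨a.1.natAbs + a.2.natAbs, by
    simp only [box, Finset.mem_product, Finset.mem_Icc]
    omega⟩

def HN (N : ℕ) : Matrix (box N) (box N) ℝ := fun a b => adj a b

theorem HN_symm (N : ℕ) : (HN N).IsSymm := by
  ext a b
  exact adj_symm _ _

/-- finite-volume Green matrix -/
def GN (N : ℕ) (V : ℤ × ℤ → ℝ) (E η : ℝ) : Matrix (box N) (box N) ℂ :=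
  Gx (HN N) fun a => (V a : ℂ) - (E + η * Complex.I)

def ZZ (N m : ℕ) (V : ℤ × ℤ → ℝ) (E η : ℝ) : ℝ :=
  ∑ a : box N, if a.1 ∈ box m then min 1 (GN N V E η a a).im else 0

theorem GN_im (N : ℕ) (V : ℤ × ℤ → ℝ) (E : ℝ) {η : ℝ} (hη : 0 < η) (a : box N) :
    η * ∑ x, ‖GN N V E η x a‖ ^ 2 = (GN N V E η a a).im := by
  have h1 := ward_diag (HN_symm N) (d := fun a : box N => (V a : ℂ) - (E + η * Complex.I))
    (fun a => by simpa using hη) a
  rw [GN, ← h1, Finset.mul_sum]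
  simp

theorem ZZ_nonneg (N m : ℕ) (V : ℤ × ℤ → ℝ) (E : ℝ) {η : ℝ} (hη : 0 < η) : 0 ≤ ZZ N m V E η := by
  refine Finset.sum_nonneg fun a _ => ?_
  split_ifs
  · rw [← GN_im N V E hη]
    exact le_min zero_le_one (by positivity)
  · rfl

theorem meas_GN (N : ℕ) (η : ℝ) (a b : box N) :
    Measurable fun p : (ℤ × ℤ → ℝ) × ℝ => Gx (HN N)
      (fun a : box N => (p.1 a : ℂ) - (p.2 + η * Complex.I)) a b := by
  have h0 : Measurable fun (p : (ℤ × ℤ → ℝ) × ℝ) (a : box N) =>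
      (p.1 a : ℂ) - (p.2 + η * Complex.I) := measurable_pi_lambda _ fun a => by fun_prop
  exact (meas_G (HN N) a b).comp h0

theorem meas_ZZ (N m : ℕ) (η : ℝ) :
    Measurable fun p : (ℤ × ℤ → ℝ) × ℝ => ZZ N m p.1 p.2 η := by
  refine Finset.measurable_sum _ fun a _ => ?_
  split_ifs
  · exact measurable_const.min (Complex.measurable_im.comp (meas_GN N η a a))
  · exact measurable_const

/-- the part of a vector outside a finite set -/
def out (T : Finset (ℤ × ℤ)) (w : ℤ × ℤ → ℂ) (y : ℤ × ℤ) : ℂ := if y ∈ T then 0 else w y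

def tail (T : Finset (ℤ × ℤ)) (w : ℤ × ℤ → ℂ) : ℝ := ∑' y, ‖w y‖ ^ 2 - ∑ y ∈ T, ‖w y‖ ^ 2

theorem tail_tendsto {w : ℤ × ℤ → ℂ} (hw : Summable fun y => ‖w y‖ ^ 2) :
    Tendsto (fun N => tail (box N) w) atTop (𝓝 0) := by
  have h1 := (hw.hasSum.comp box_tendsto).const_sub (∑' y, ‖w y‖ ^ 2)
  rw [sub_self] at h1
  exact h1

theorem sum_out_le {w : ℤ × ℤ → ℂ} (hw : Summable fun y => ‖w y‖ ^ 2) (T T' : Finset (ℤ × ℤ)) :
    ∑ y ∈ T', ‖out T w y‖ ^ 2 ≤ tail T w := by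
  have h1 : ∑ y ∈ T', ‖out T w y‖ ^ 2 = ∑ y ∈ T' \ T, ‖w y‖ ^ 2 := by
    rw [Finset.sdiff_eq_filter, Finset.sum_filter]
    refine Finset.sum_congr rfl fun y _ => ?_
    by_cases h : y ∈ T <;> simp [out, h]
  have h2 := hw.sum_le_tsum (T' \ T ∪ T) fun _ _ => sq_nonneg _
  rw [Finset.sum_union Finset.sdiff_disjoint] at h2
  rw [h1, tail]
  linarith

theorem sum_adj (T : Finset (ℤ × ℤ)) (u : ℤ × ℤ → ℂ) (a : ℤ × ℤ) :
    ∑ b ∈ T, (adj a b : ℂ) * u b = hop u a - hop (out T u) a := by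
  simp only [adj_eq, apply_ite Complex.ofReal, Complex.ofReal_add, Complex.ofReal_one,
    Complex.ofReal_zero, add_mul, ite_mul, one_mul, zero_mul, Finset.sum_add_distrib,
    Finset.sum_ite_eq', hop, out]
  split_ifs <;> ring

theorem hop_out_le {u : ℤ × ℤ → ℂ} (hu : Summable fun y => ‖u y‖ ^ 2) (T : Finset (ℤ × ℤ)) :
    ∑ a ∈ T, ‖hop (out T u) a‖ ^ 2 ≤ 16 * tail T u := by
  have h1 : ∀ e : ℤ × ℤ → ℤ × ℤ, Function.Injective e →
      ∑ a ∈ T, ‖out T u (e a)‖ ^ 2 ≤ tail T u := fun e he => by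
    have := sum_out_le hu T (T.image e)
    rwa [Finset.sum_image fun a _ b _ h => he h] at this
  have i1 := h1 (fun a => (a.1 + 1, a.2)) fun a b h => by
    simp only [Prod.mk.injEq] at h; exact Prod.ext (by omega) h.2
  have i2 := h1 (fun a => (a.1 - 1, a.2)) fun a b h => by
    simp only [Prod.mk.injEq] at h; exact Prod.ext (by omega) h.2
  have i3 := h1 (fun a => (a.1, a.2 + 1)) fun a b h => by
    simp only [Prod.mk.injEq] at h; exact Prod.ext h.1 (by omega)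
  have i4 := h1 (fun a => (a.1, a.2 - 1)) fun a b h => by
    simp only [Prod.mk.injEq] at h; exact Prod.ext h.1 (by omega)
  have h2 : ∀ a, ‖hop (out T u) a‖ ^ 2 ≤ 4 * (‖out T u (a.1 + 1, a.2)‖ ^ 2 +
      ‖out T u (a.1 - 1, a.2)‖ ^ 2 + ‖out T u (a.1, a.2 + 1)‖ ^ 2 +
      ‖out T u (a.1, a.2 - 1)‖ ^ 2) := fun a => by
    have h3 : ‖hop (out T u) a‖ ≤ ‖out T u (a.1 + 1, a.2)‖ + ‖out T u (a.1 - 1, a.2)‖ +
        ‖out T u (a.1, a.2 + 1)‖ + ‖out T u (a.1, a.2 - 1)‖ := norm_add₄_le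
    refine (pow_le_pow_left₀ (norm_nonneg _) h3 2).trans ?_
    generalize ‖out T u (a.1 + 1, a.2)‖ = p
    generalize ‖out T u (a.1 - 1, a.2)‖ = q
    generalize ‖out T u (a.1, a.2 + 1)‖ = r
    generalize ‖out T u (a.1, a.2 - 1)‖ = s
    nlinarith [sq_nonneg (p - q), sq_nonneg (p - r), sq_nonneg (p - s), sq_nonneg (q - r),
      sq_nonneg (q - s), sq_nonneg (r - s)]
  refine (Finset.sum_le_sum fun a _ => h2 a).trans ?_
  simp only [← Finset.mul_sum, Finset.sum_add_distrib]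
  linarith

theorem min_sum_le {ι : Type} [Fintype ι] {y : ι → ℝ} (hy : ∀ a, 0 ≤ y a) {K s P : ℝ}
    (hK : 0 ≤ K) (hs : 0 ≤ s) (h : P ≤ K * ∑ a, y a + s) :
    min 1 P ≤ (K + 1) * ∑ a, min 1 (y a) + s := by
  have h0 : 0 ≤ ∑ a, min 1 (y a) := Finset.sum_nonneg fun a _ => le_min zero_le_one (hy a)
  by_cases h1 : ∀ a, y a ≤ 1
  · simp only [min_eq_right (h1 _)] at h0 ⊢
    linarith [min_le_right 1 P]
  · push Not at h1
    obtain ⟨a, ha⟩ := h1
    have h2 : min 1 (y a) ≤ ∑ a, min 1 (y a) := Finset.single_le_sum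
      (f := fun a => min 1 (y a)) (fun a _ => le_min zero_le_one (hy a)) (Finset.mem_univ a)
    rw [min_eq_left ha.le] at h2
    nlinarith [min_le_left 1 P]

theorem fin_core {ι : Type} [Fintype ι] [DecidableEq ι] {H : Matrix ι ι ℝ} (hH : H.IsSymm)
    {d u ψ b : ι → ℂ} {η U Ψ β : ℝ} (hη : 0 < η) (hd1 : ∀ a, (d a).im = -η)
    (hM : Mx H d *ᵥ u = ψ - b) (hU : ∑ a, ‖u a‖ ^ 2 ≤ U) (hΨ : ∑ a, ‖ψ a‖ ^ 2 ≤ Ψ)
    (hb1 : ∑ a, ‖b a‖ ^ 2 ≤ β) (P : ι → Prop) [DecidablePred P] :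
    min 1 (∑ a, (starRingEnd ℂ) (ψ a) * u a).im ≤
      (3 * Ψ + 1) * (∑ a, if P a then min 1 (Gx H d a a).im else 0) +
        (3 * (η * ∑ a, ‖(Gx H d *ᵥ fun b => if P b then 0 else ψ b) a‖ ^ 2) +
          (3 * β / η + √(U * β))) := by
  have hd2 : ∀ a, (d a).im < 0 := fun a => by rw [hd1]; linarith
  have hw : ∀ a, η * ∑ x, ‖Gx H d x a‖ ^ 2 = (Gx H d a a).im := fun a => by
    rw [← ward_diag hH hd2 a, Finset.mul_sum]
    simp only [hd1, neg_neg]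
  have h4 : η * ∑ a, ‖(Gx H d *ᵥ b) a‖ ^ 2 ≤ β / η := by
    have h5 := ward_le hH hη (fun a => (hd1 a).le) b
    simp only [hd1, neg_neg, ← Finset.mul_sum] at h5
    exact h5.trans (div_le_div_of_nonneg_right hb1 hη.le)
  have hu1 : u = Gx H d *ᵥ (ψ - b) := by rw [← hM, mulVec_mulVec, GM hH hd2, one_mulVec]
  have h1 : (∑ a, (starRingEnd ℂ) (ψ a) * u a).im ≤ η * ∑ a, ‖u a‖ ^ 2 + ∑ a, ‖u a‖ * ‖b a‖ := by
    have h2 := im_form hH d u
    rw [hM] at h2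
    simp only [dotProduct, Complex.im_sum, hd1, Pi.star_apply, Pi.sub_apply] at h2
    rw [Complex.im_sum, Finset.mul_sum]
    have h3 : ∀ a, ((starRingEnd ℂ) (ψ a) * u a).im ≤
        -(star (u a) * (ψ a - b a)).im + ‖u a‖ * ‖b a‖ := fun a => by
      have h4 : -(star (u a) * b a).im ≤ ‖u a‖ * ‖b a‖ := by
        refine (neg_le_abs _).trans ((Complex.abs_im_le_norm _).trans ?_)
        rw [norm_mul, norm_star]
      simp only [mul_sub, Complex.sub_im, Complex.star_def, Complex.mul_im, Complex.conj_re,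
        Complex.conj_im] at h4 ⊢
      linarith
    refine (Finset.sum_le_sum fun a _ => h3 a).trans (le_of_eq ?_)
    rw [Finset.sum_add_distrib, Finset.sum_neg_distrib, h2, ← Finset.sum_neg_distrib]
    simp
  generalize Gx H d = G at *
  have hβ : 0 ≤ β := le_trans (by positivity) hb1
  have hΨ0 : 0 ≤ Ψ := le_trans (by positivity) hΨ
  have h2 : ∑ a, ‖u a‖ * ‖b a‖ ≤ √(U * β) := by
    refine Real.le_sqrt_of_sq_le ((Finset.sum_mul_sq_le_sq_mul_sq _ _ _).trans ?_)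
    exact mul_le_mul hU hb1 (by positivity) (le_trans (by positivity) hU)
  set ψ1 : ι → ℂ := fun a => if P a then ψ a else 0 with hψ1
  set r : ι → ℂ := fun a => if P a then 0 else ψ a with hr
  have h3 : ∀ a, ‖u a‖ ^ 2 ≤ 3 * (‖(G *ᵥ ψ1) a‖ ^ 2 + ‖(G *ᵥ r) a‖ ^ 2 + ‖(G *ᵥ b) a‖ ^ 2) := by
    intro a
    have e1 : ψ = ψ1 + r := by
      funext a
      by_cases h : P a <;> simp [hψ1, hr, h]
    have e2 := congrFun hu1 a
    rw [e1, mulVec_sub, mulVec_add] at e2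
    simp only [Pi.sub_apply, Pi.add_apply] at e2
    have h4 : ‖u a‖ ≤ ‖(G *ᵥ ψ1) a‖ + ‖(G *ᵥ r) a‖ + ‖(G *ᵥ b) a‖ := by
      rw [e2]
      exact (norm_sub_le _ _).trans (add_le_add_left (norm_add_le _ _) _)
    refine (pow_le_pow_left₀ (norm_nonneg _) h4 2).trans ?_
    generalize ‖(G *ᵥ ψ1) a‖ = p
    generalize ‖(G *ᵥ r) a‖ = q
    generalize ‖(G *ᵥ b) a‖ = r
    nlinarith [sq_nonneg (p - q), sq_nonneg (p - r), sq_nonneg (q - r)]
  have h5 : η * ∑ a, ‖(G *ᵥ ψ1) a‖ ^ 2 ≤ Ψ * ∑ a, if P a then (G a a).im else 0 := by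
    have h6 : ∀ x, ‖(G *ᵥ ψ1) x‖ ^ 2 ≤ Ψ * ∑ a, if P a then ‖G x a‖ ^ 2 else 0 := fun x => by
      have h7 : ‖(G *ᵥ ψ1) x‖ ≤ ∑ a, ‖ψ a‖ * if P a then ‖G x a‖ else 0 := by
        refine (norm_sum_le _ _).trans (Finset.sum_le_sum fun a _ => ?_)
        by_cases h : P a <;> simp [hψ1, h, mul_comm]
      refine (pow_le_pow_left₀ (norm_nonneg _) h7 2).trans
        ((Finset.sum_mul_sq_le_sq_mul_sq _ _ _).trans ?_)
      simp only [ite_pow, ne_eq, OfNat.ofNat_ne_zero, not_false_eq_true, zero_pow]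
      exact mul_le_mul_of_nonneg_right hΨ (by positivity)
    refine (mul_le_mul_of_nonneg_left (Finset.sum_le_sum fun x _ => h6 x) hη.le).trans
      (le_of_eq ?_)
    rw [← Finset.mul_sum, mul_left_comm, Finset.sum_comm, Finset.mul_sum]
    refine congrArg _ (Finset.sum_congr rfl fun a _ => ?_)
    split_ifs
    · exact hw a
    · simp
  have h6 := mul_le_mul_of_nonneg_left (Finset.sum_le_sum fun a (_ : a ∈ Finset.univ) => h3 a) hη.le
  simp only [← Finset.mul_sum, Finset.sum_add_distrib] at h6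
  have hZ : (∑ a, if P a then min 1 (G a a).im else 0) =
      ∑ a, min 1 (if P a then (G a a).im else 0) :=
    Finset.sum_congr rfl fun a _ => by split_ifs <;> simp
  rw [hZ]
  refine min_sum_le (fun a => ?_) (by positivity) (by positivity) ?_
  · split_ifs
    · rw [← hw]; positivity
    · rfl
  · rw [mul_div_assoc]
    linarith

/-- the remainder term -/
def RR (N m : ℕ) (V : ℤ × ℤ → ℝ) (ψ : ℤ × ℤ → ℂ) (E η : ℝ) : ℝ :=
  η * ∑ a, ‖(GN N V E η *ᵥ fun b : box N => out (box m) ψ b) a‖ ^ 2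

theorem finite_bound {V : ℤ × ℤ → ℝ} {ψ u : ℤ × ℤ → ℂ} {E η : ℝ} (hη : 0 < η)
    (hψ : Summable fun y => ‖ψ y‖ ^ 2) (hu : Summable fun y => ‖u y‖ ^ 2)
    (h : ∀ x, hop u x + (V x : ℂ) * u x - (E + η * Complex.I) * u x = ψ x) (N m : ℕ) :
    min 1 (∑ x ∈ box N, (starRingEnd ℂ) (ψ x) * u x).im ≤
      (3 * ∑' y, ‖ψ y‖ ^ 2 + 1) * ZZ N m V E η + (3 * RR N m V ψ E η +
        (3 * (16 * tail (box N) u) / η + √((∑' y, ‖u y‖ ^ 2) * (16 * tail (box N) u)))) := by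
  have hb1 : ∑ a : box N, ‖hop (out (box N) u) a‖ ^ 2 ≤ 16 * tail (box N) u := by
    rw [Finset.sum_coe_sort (box N) fun a => ‖hop (out (box N) u) a‖ ^ 2]
    exact hop_out_le hu _
  have hM : Mx (HN N) (fun a => (V a : ℂ) - (E + η * Complex.I)) *ᵥ (fun a : box N => u a) =
      (fun a : box N => ψ a) - fun a : box N => hop (out (box N) u) a := by
    funext a
    have h1 := sum_adj (box N) u a
    rw [← Finset.sum_coe_sort] at h1
    simp only [Mx, add_mulVec, Pi.add_apply, mulVec_diagonal, Pi.sub_apply, ← h a]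
    simp only [mulVec, dotProduct, map_apply, HN, h1]
    ring
  have hU : ∑ a : box N, ‖u a‖ ^ 2 ≤ ∑' y, ‖u y‖ ^ 2 := by
    rw [Finset.sum_coe_sort (box N) fun a => ‖u a‖ ^ 2]
    exact hu.sum_le_tsum _ fun _ _ => sq_nonneg _
  have hΨ : ∑ a : box N, ‖ψ a‖ ^ 2 ≤ ∑' y, ‖ψ y‖ ^ 2 := by
    rw [Finset.sum_coe_sort (box N) fun a => ‖ψ a‖ ^ 2]
    exact hψ.sum_le_tsum _ fun _ _ => sq_nonneg _
  rw [← Finset.sum_coe_sort]
  exact fin_core (HN_symm N) hη (fun a => by simp) hM hU hΨ hb1 fun a => a.1 ∈ box m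

end

end Vale.Agent.P365
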