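import Mathlib

/-!
P365: finite-volume linear algebra. Green matrices of `H + diag d` with `Im d < 0`, Ward
identities, the quadratic form `tr (Kᵀ A K A)` and rank-one updates.
-/

namespace Vale.Agent.P365

open Matrix Finset

noncomputable section

variable {ι : Type} [Fintype ι] [DecidableEq ι]

def Mx (H : Matrix ι ι ℝ) (d : ι → ℂ) : Matrix ι ι ℂ := H.map (fun x => (x : ℂ)) + diagonal d

def Gx (H : Matrix ι ι ℝ) (d : ι → ℂ) : Matrix ι ι ℂ := (Mx H d)⁻¹

def Ax (H : Matrix ι ι ℝ) (d : ι → ℂ) : Matrix ι ι ℝ := (Gx H d).map Complex.im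

def qf (K A B : Matrix ι ι ℝ) : ℝ := trace (Kᵀ * A * K * B)

variable {H : Matrix ι ι ℝ} {d : ι → ℂ}

omit [Fintype ι] [DecidableEq ι] in
theorem herm_map (hH : H.IsSymm) : (H.map (fun x => (x : ℂ))).IsHermitian := by
  ext a b
  simp only [conjTranspose_apply, map_apply, Complex.star_def, Complex.conj_ofReal]
  rw [hH.apply a b]

theorem im_form (hH : H.IsSymm) (d u : ι → ℂ) :
    (star u ⬝ᵥ (Mx H d *ᵥ u)).im = ∑ a, (d a).im * ‖u a‖ ^ 2 := by
  have h1 := (herm_map hH).im_star_dotProduct_mulVec_self u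
  rw [Mx, add_mulVec, dotProduct_add, Complex.add_im]
  rw [show (star u ⬝ᵥ (H.map (fun x => (x : ℂ)) *ᵥ u)).im = 0 from h1, zero_add]
  simp only [dotProduct, mulVec_diagonal, Pi.star_apply, Complex.im_sum]
  refine Finset.sum_congr rfl fun a _ => ?_
  rw [← Complex.normSq_eq_norm_sq, Complex.normSq_apply]
  simp only [Complex.star_def, Complex.mul_im, Complex.mul_re, Complex.conj_re, Complex.conj_im]
  ring

theorem det_unit (hH : H.IsSymm) (hd : ∀ a, (d a).im < 0) : IsUnit (Mx H d).det := by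
  rw [isUnit_iff_ne_zero]
  intro h
  obtain ⟨v, hv, h0⟩ := Matrix.exists_mulVec_eq_zero_iff.2 h
  have h1 := im_form hH d v
  rw [h0, dotProduct_zero, Complex.zero_im, eq_comm, Finset.sum_eq_zero_iff_of_nonpos
    fun a _ => mul_nonpos_of_nonpos_of_nonneg (hd a).le (sq_nonneg _)] at h1
  apply hv
  funext a
  have h2 := (mul_eq_zero.1 (h1 a (Finset.mem_univ a))).resolve_left (hd a).ne
  simpa using h2

theorem MG (hH : H.IsSymm) (hd : ∀ a, (d a).im < 0) : Mx H d * Gx H d = 1 :=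
  mul_nonsing_inv _ (det_unit hH hd)

theorem GM (hH : H.IsSymm) (hd : ∀ a, (d a).im < 0) : Gx H d * Mx H d = 1 :=
  nonsing_inv_mul _ (det_unit hH hd)

theorem G_symm (hH : H.IsSymm) (d : ι → ℂ) (a b : ι) : Gx H d a b = Gx H d b a := by
  have h1 : (Mx H d)ᵀ = Mx H d := by
    rw [Mx, transpose_add, diagonal_transpose, ← transpose_map, hH.eq]
  have h2 : (Gx H d)ᵀ = Gx H d := by rw [Gx, transpose_nonsing_inv, h1]
  rw [← transpose_apply (Gx H d) a b, h2]

theorem ward_vec (hH : H.IsSymm) (hd : ∀ a, (d a).im < 0) (v : ι → ℂ) :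
    ∑ a, -(d a).im * ‖(Gx H d *ᵥ v) a‖ ^ 2 = -(star (Gx H d *ᵥ v) ⬝ᵥ v).im := by
  have h1 := im_form hH d (Gx H d *ᵥ v)
  rw [mulVec_mulVec, MG hH hd, one_mulVec] at h1
  rw [h1, ← Finset.sum_neg_distrib]
  simp only [neg_mul]

theorem ward_le (hH : H.IsSymm) {m : ℝ} (hm : 0 < m) (hd : ∀ a, (d a).im ≤ -m) (v : ι → ℂ) :
    ∑ a, -(d a).im * ‖(Gx H d *ᵥ v) a‖ ^ 2 ≤ (∑ a, ‖v a‖ ^ 2) / m := by
  have hd' : ∀ a, (d a).im < 0 := fun a => by linarith [hd a]
  have h1 := ward_vec hH hd' v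
  set u := Gx H d *ᵥ v with hu
  have h2 : -(star u ⬝ᵥ v).im ≤ ∑ a, (-(d a).im * ‖u a‖ ^ 2 / 2 + ‖v a‖ ^ 2 / m / 2) := by
    simp only [dotProduct, Complex.im_sum, ← Finset.sum_neg_distrib]
    refine Finset.sum_le_sum fun a _ => ?_
    have h3 : -(star u a * v a).im ≤ ‖u a‖ * ‖v a‖ := by
      refine (neg_le_abs _).trans ((Complex.abs_im_le_norm _).trans ?_)
      rw [norm_mul, Pi.star_apply, norm_star]
    have h4 : m * ‖u a‖ ^ 2 ≤ -(d a).im * ‖u a‖ ^ 2 :=
      mul_le_mul_of_nonneg_right (by linarith [hd a]) (sq_nonneg _)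
    have h5 : 2 * (‖u a‖ * ‖v a‖) ≤ m * ‖u a‖ ^ 2 + ‖v a‖ ^ 2 / m := by
      have : ‖v a‖ ^ 2 / m = m * (‖v a‖ / m) ^ 2 := by field_simp
      have e : ‖v a‖ = m * (‖v a‖ / m) := by field_simp
      rw [this]
      nth_rewrite 1 [e]
      nlinarith [mul_nonneg hm.le (sq_nonneg (‖u a‖ - ‖v a‖ / m))]
    linarith
  rw [Finset.sum_add_distrib, ← Finset.sum_div, ← Finset.sum_div, ← Finset.sum_div] at h2
  linarith

theorem ward_diag (hH : H.IsSymm) (hd : ∀ a, (d a).im < 0) (b : ι) :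
    ∑ a, -(d a).im * ‖Gx H d a b‖ ^ 2 = (Gx H d b b).im := by
  have h1 := ward_vec hH hd (Pi.single b 1)
  simp only [mulVec_single_one, col_apply, dotProduct_single, Pi.star_apply, mul_one,
    Complex.star_def, Complex.conj_im, neg_neg] at h1
  exact h1

theorem im_diag_le (hH : H.IsSymm) {m : ℝ} (hm : 0 < m) (hd : ∀ a, (d a).im ≤ -m) (b : ι) :
    (Gx H d b b).im ≤ 1 / m := by
  have h1 := ward_le hH hm hd (Pi.single b 1)
  rw [← ward_diag hH (fun a => by linarith [hd a]) b]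
  simp only [mulVec_single_one, col_apply] at h1
  refine h1.trans (le_of_eq ?_)
  rw [Finset.sum_eq_single b (fun a _ ha => by simp [ha]) (by simp)]
  simp

theorem im_diag_ge (hH : H.IsSymm) (hd : ∀ a, (d a).im < 0) (a b : ι) :
    -(d a).im * ‖Gx H d a b‖ ^ 2 ≤ (Gx H d b b).im := by
  rw [← ward_diag hH hd b]
  exact Finset.single_le_sum (f := fun a => -(d a).im * ‖Gx H d a b‖ ^ 2)
    (fun a _ => mul_nonneg (by linarith [hd a]) (sq_nonneg _)) (Finset.mem_univ a)

theorem col_ne_zero (hH : H.IsSymm) (hd : ∀ a, (d a).im < 0) (b : ι) : ∃ a, Gx H d a b ≠ 0 := by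
  by_contra h
  push Not at h
  have h1 := congrFun (congrFun (MG hH hd) b) b
  simp [mul_apply, h] at h1

theorem diag_ne_zero (hH : H.IsSymm) (hd : ∀ a, (d a).im < 0) (b : ι) : Gx H d b b ≠ 0 := by
  obtain ⟨a, ha⟩ := col_ne_zero hH hd b
  intro h
  have h1 := im_diag_ge hH hd a b
  rw [h, Complex.zero_im] at h1
  have : 0 < -(d a).im * ‖Gx H d a b‖ ^ 2 := mul_pos (by linarith [hd a]) (by positivity)
  linarith

theorem ward_mat (hH : H.IsSymm) (hd : ∀ a, (d a).im < 0) :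
    (Ax H d).map (fun x => (x : ℂ)) =
      (Gx H d)ᴴ * diagonal (fun a => ((-(d a).im : ℝ) : ℂ)) * Gx H d ∧
    (Ax H d).map (fun x => (x : ℂ)) =
      Gx H d * diagonal (fun a => ((-(d a).im : ℝ) : ℂ)) * (Gx H d)ᴴ := by
  have h1 : (Mx H d)ᴴ - Mx H d = (2 * Complex.I) • diagonal (fun a => ((-(d a).im : ℝ) : ℂ)) := by
    rw [Mx, conjTranspose_add, (herm_map hH).eq, diagonal_conjTranspose, add_sub_add_left_eq_sub,
      diagonal_sub, ← diagonal_smul]
    refine congrArg diagonal (funext fun a => ?_)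
    apply Complex.ext
    · simp
    · simp; ring
  have h2 : Gx H d - (Gx H d)ᴴ = (2 * Complex.I) • (Ax H d).map (fun x => (x : ℂ)) := by
    ext a b
    simp only [Matrix.sub_apply, conjTranspose_apply, Matrix.smul_apply, map_apply, Ax,
      G_symm hH d b a, smul_eq_mul, Complex.star_def]
    rw [Complex.sub_conj]; push_cast; ring
  have h3 : (Gx H d)ᴴ * (Mx H d)ᴴ = 1 := by
    rw [← conjTranspose_mul, MG hH hd, conjTranspose_one]
  have h4 : (Mx H d)ᴴ * (Gx H d)ᴴ = 1 := by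
    rw [← conjTranspose_mul, GM hH hd, conjTranspose_one]
  have h5 : (2 * Complex.I) ≠ 0 := by simp
  constructor
  · apply smul_right_injective _ h5
    simp only
    rw [← h2, ← Matrix.smul_mul, ← Matrix.mul_smul, ← h1, Matrix.mul_sub, Matrix.sub_mul, h3,
      Matrix.one_mul, Matrix.mul_assoc, MG hH hd, Matrix.mul_one]
  · apply smul_right_injective _ h5
    simp only
    rw [← h2, ← Matrix.smul_mul, ← Matrix.mul_smul, ← h1, Matrix.mul_sub, Matrix.sub_mul,
      GM hH hd, Matrix.one_mul, Matrix.mul_assoc, h4, Matrix.mul_one]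

theorem qf_eq (hH : H.IsSymm) (hd : ∀ a, (d a).im < 0) (K : Matrix ι ι ℝ) :
    qf K (Ax H d) (Ax H d) = ∑ a, ∑ b, -(d a).im * -(d b).im *
      ‖(Gx H d * K.map (fun x => (x : ℂ)) * Gx H d) a b‖ ^ 2 := by
  apply Complex.ofReal_injective
  have h1 : ((qf K (Ax H d) (Ax H d) : ℝ) : ℂ) = trace ((K.map (fun x => (x : ℂ)))ᴴ *
      (Ax H d).map (fun x => (x : ℂ)) * K.map (fun x => (x : ℂ)) *
      (Ax H d).map (fun x => (x : ℂ))) := by
    simp only [qf, trace, diag_apply, mul_apply, transpose_apply, conjTranspose_apply, map_apply,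
      Complex.star_def, Complex.conj_ofReal]
    push_cast
    rfl
  rw [h1]
  nth_rewrite 1 [(ward_mat hH hd).1]
  rw [(ward_mat hH hd).2]
  set Γ : Matrix ι ι ℂ := diagonal (fun a => ((-(d a).im : ℝ) : ℂ)) with hΓ
  set G := Gx H d
  set K' := K.map (fun x => (x : ℂ))
  have h2 : K'ᴴ * (Gᴴ * Γ * G) * K' * (G * Γ * Gᴴ) =
      (K'ᴴ * Gᴴ) * (Γ * (G * K' * G) * Γ * Gᴴ) := by
    simp only [Matrix.mul_assoc]
  have h3 : Γ * (G * K' * G) * Γ * Gᴴ * (K'ᴴ * Gᴴ) = Γ * (G * K' * G) * Γ * (G * K' * G)ᴴ := by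
    simp only [conjTranspose_mul, Matrix.mul_assoc]
  rw [h2, trace_mul_comm, h3]
  generalize G * K' * G = B
  simp only [trace, diag_apply]
  push_cast
  refine Finset.sum_congr rfl fun a _ => ?_
  rw [mul_apply]
  refine Finset.sum_congr rfl fun b _ => ?_
  rw [← Complex.mul_conj' (B a b), hΓ, mul_diagonal, diagonal_mul, conjTranspose_apply,
    Complex.star_def]
  push_cast
  ring

theorem qf_nonneg (hH : H.IsSymm) (hd : ∀ a, (d a).im < 0) (K : Matrix ι ι ℝ) :
    0 ≤ qf K (Ax H d) (Ax H d) := by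
  rw [qf_eq hH hd]
  exact Finset.sum_nonneg fun a _ => Finset.sum_nonneg fun b _ => mul_nonneg
    (mul_nonneg (by linarith [hd a]) (by linarith [hd b])) (sq_nonneg _)

theorem qf_le (hH : H.IsSymm) {m : ℝ} (hm : 0 < m) (hd : ∀ a, (d a).im ≤ -m)
    (K : Matrix ι ι ℝ) : qf K (Ax H d) (Ax H d) ≤ (∑ a, ∑ b, K a b ^ 2) / m ^ 2 := by
  have hd' : ∀ a, (d a).im < 0 := fun a => by linarith [hd a]
  rw [qf_eq hH hd', Finset.sum_comm]
  set K' := K.map (fun x => (x : ℂ)) with hK'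
  have h1 : ∀ b, ∑ a, -(d a).im * -(d b).im * ‖(Gx H d * K' * Gx H d) a b‖ ^ 2 ≤
      ∑ c, -(d b).im * ‖(Gx H d *ᵥ K' c) b‖ ^ 2 / m := fun b => by
    have h2 := ward_le hH hm hd (fun c => (K' * Gx H d) c b)
    have h3 := mul_le_mul_of_nonneg_left h2 (show 0 ≤ -(d b).im by linarith [hd' b])
    rw [Finset.mul_sum, Finset.sum_div, Finset.mul_sum] at h3
    refine le_trans (le_of_eq (Finset.sum_congr rfl fun a _ => ?_))
      (h3.trans (le_of_eq (Finset.sum_congr rfl fun c _ => ?_)))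
    · have : (Gx H d * K' * Gx H d) a b = (Gx H d *ᵥ fun c => (K' * Gx H d) c b) a := by
        rw [Matrix.mul_assoc]; rfl
      rw [this]; ring
    · have : (K' * Gx H d) c b = (Gx H d *ᵥ K' c) b := by
        simp only [mul_apply, mulVec, dotProduct]
        exact Finset.sum_congr rfl fun e _ => by rw [G_symm hH d e b, mul_comm]
      rw [this]; ring
  refine (Finset.sum_le_sum fun b _ => h1 b).trans ?_
  rw [Finset.sum_comm, Finset.sum_div]
  refine Finset.sum_le_sum fun c _ => ?_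
  rw [← Finset.sum_div, sq m, ← div_div]
  refine div_le_div_of_nonneg_right ((ward_le hH hm hd (K' c)).trans (le_of_eq ?_)) hm.le
  simp [hK']

/-- the commutator of `H` with the multiplication by `f` -/
def Kf (H : Matrix ι ι ℝ) (f : ι → ℝ) : Matrix ι ι ℝ := fun a b => H a b * (f b - f a)

omit [Fintype ι] [DecidableEq ι] in
theorem Kf_anti (hH : H.IsSymm) (f : ι → ℝ) : (Kf H f)ᵀ = -Kf H f := by
  ext a b
  simp only [Kf, transpose_apply, Matrix.neg_apply, hH.apply a b]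
  ring

theorem GKG (hH : H.IsSymm) (hd : ∀ a, (d a).im < 0) (f : ι → ℝ) (a b : ι) :
    (Gx H d * (Kf H f).map (fun x => (x : ℂ)) * Gx H d) a b = (f a - f b : ℝ) * Gx H d a b := by
  have h1 : (Kf H f).map (fun x => (x : ℂ)) =
      Mx H d * diagonal (fun a => (f a : ℂ)) - diagonal (fun a => (f a : ℂ)) * Mx H d := by
    ext a b
    simp only [map_apply, Kf, Matrix.sub_apply, mul_diagonal, diagonal_mul, Mx, Matrix.add_apply]
    by_cases h : a = b
    · subst h; simp [mul_comm]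
    · simp only [diagonal_apply_ne _ h]; push_cast; ring
  rw [h1, Matrix.mul_sub, Matrix.sub_mul, ← Matrix.mul_assoc, GM hH hd, Matrix.one_mul,
    Matrix.mul_assoc, Matrix.mul_assoc, MG hH hd, Matrix.mul_one]
  simp only [Matrix.sub_apply, mul_diagonal, diagonal_mul]
  push_cast; ring

theorem qf_ge (hH : H.IsSymm) (hd : ∀ a, (d a).im < 0) (f : ι → ℝ) (o : ι) :
    ∑ a, -(d a).im * -(d o).im * ((f a - f o) ^ 2 * ‖Gx H d a o‖ ^ 2) ≤
      qf (Kf H f) (Ax H d) (Ax H d) := by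
  rw [qf_eq hH hd]
  refine Finset.sum_le_sum fun a _ => le_trans (le_of_eq ?_) (Finset.single_le_sum
    (f := fun b => -(d a).im * -(d b).im *
      ‖(Gx H d * (Kf H f).map (fun x => (x : ℂ)) * Gx H d) a b‖ ^ 2)
    (fun b _ => mul_nonneg (mul_nonneg (by linarith [hd a]) (by linarith [hd b])) (sq_nonneg _))
    (Finset.mem_univ o))
  simp only [GKG hH hd, norm_mul, Complex.norm_real, mul_pow, Real.norm_eq_abs, sq_abs]

theorem update_G (hH : H.IsSymm) (hd : ∀ a, (d a).im < 0) (w : ι) (e : ℂ)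
    (he : (d w + e).im < 0) : 1 + e * Gx H d w w ≠ 0 ∧ ∀ a b,
      Gx H (Function.update d w (d w + e)) a b =
        Gx H d a b - e / (1 + e * Gx H d w w) * (Gx H d a w * Gx H d b w) := by
  set d' := Function.update d w (d w + e) with hd'def
  have hd' : ∀ a, (d' a).im < 0 := fun a => by
    by_cases h : a = w
    · subst h; simpa [hd'def] using he
    · simpa [hd'def, Function.update_of_ne h] using hd a
  have h1 : Mx H d' = Mx H d + diagonal (Pi.single w e) := by
    rw [Mx, Mx, add_assoc, diagonal_add]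
    refine congrArg _ (congrArg diagonal (funext fun a => ?_))
    by_cases h : a = w
    · subst h; simp [hd'def]
    · simp [hd'def, h]
  have h2 : Gx H d = Gx H d' + Gx H d' * diagonal (Pi.single w e) * Gx H d := by
    have h3 : Gx H d' * Mx H d' * Gx H d = Gx H d := by rw [GM hH hd', Matrix.one_mul]
    rw [h1, Matrix.mul_add, Matrix.add_mul, Matrix.mul_assoc, MG hH hd, Matrix.mul_one] at h3
    exact h3.symm
  have h4 : ∀ a b, Gx H d a b = Gx H d' a b + Gx H d' a w * e * Gx H d w b := fun a b => by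
    nth_rewrite 1 [h2]
    rw [Matrix.add_apply, mul_apply, Finset.sum_eq_single w]
    · simp
    · intro c _ hc; simp [hc]
    · simp
  have h5 : 1 + e * Gx H d w w ≠ 0 := fun h => by
    obtain ⟨a, ha⟩ := col_ne_zero hH hd w
    apply ha
    rw [h4 a w]
    linear_combination Gx H d' a w * h
  refine ⟨h5, fun a b => ?_⟩
  have h6 := h4 a w
  have h7 := h4 a b
  rw [G_symm hH d b w]
  field_simp
  linear_combination (-1 - e * Gx H d w w) * h7 + e * Gx H d w b * h6

end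

end Vale.Agent.P365
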