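import Vale.Agent.P365.Det

/-!
P365: absence of absolutely continuous spectrum in two dimensions for Cauchy noise.
-/

namespace Vale.Agent.P365

open Matrix MeasureTheory ProbabilityTheory Filter Topology Set
open scoped NNReal ENNReal

noncomputable section

theorem liminf_affine (f : ℕ → ℝ≥0∞) {a : ℝ≥0∞} (ha : a ≠ ⊤) (b : ℝ≥0∞) :
    liminf (fun n => a * f n + b) atTop = a * liminf f atTop + b := by
  have h1 : Monotone fun x : ℝ≥0∞ => a * x + b := fun x y h => by
    simp only; gcongr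
  exact (h1.map_liminf_of_continuousAt f
    ((ENNReal.continuous_const_mul ha).add continuous_const).continuousAt).symm

def Zn (V : ℤ × ℤ → ℝ) (η : ℝ) (m : ℕ) : ℝ≥0∞ :=
  liminf (fun N => ∫⁻ E in Icc (-(m : ℝ)) m, ENNReal.ofReal (ZZ N m V E η)) atTop

theorem meas_Zn (η : ℝ) (m : ℕ) : Measurable fun V => Zn V η m :=
  Measurable.liminf fun N => (meas_ZZ N m η).ennreal_ofReal.lintegral_prod_right'

theorem RR_mass {V : ℤ × ℤ → ℝ} {ψ : ℤ × ℤ → ℂ} (hψ : Summable fun y => ‖ψ y‖ ^ 2) {η : ℝ}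
    (hη : 0 < η) (N m : ℕ) : ∫⁻ E, ENNReal.ofReal (RR N m V ψ E η) ≤
      ENNReal.ofReal (Real.pi * tail (box m) ψ) := by
  have h1 := green_mass (HN_symm N) (fun a : box N => V a) hη (fun b : box N => out (box m) ψ b)
  refine h1.le.trans (ENNReal.ofReal_le_ofReal (mul_le_mul_of_nonneg_left ?_ Real.pi_pos.le))
  rw [Finset.sum_coe_sort (box N) fun a => ‖out (box m) ψ a‖ ^ 2]
  exact sum_out_le hψ _ _

theorem meas_RR (N m : ℕ) (V : ℤ × ℤ → ℝ) (ψ : ℤ × ℤ → ℂ) (η : ℝ) :
    Measurable fun E => RR N m V ψ E η := by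
  refine Measurable.const_mul (Finset.measurable_sum _ fun a _ => Measurable.pow_const
    (Measurable.norm ?_) 2) _
  exact Finset.measurable_sum _ fun b _ =>
    ((meas_GN N η a b).comp (measurable_const.prodMk measurable_id)).mul_const _

theorem det_bound {V : ℤ × ℤ → ℝ} {ψ : ℤ × ℤ → ℂ} (hψ : Summable fun y => ‖ψ y‖ ^ 2)
    {μ : Measure ℝ} (hμ : IsSpectralMeasure V ψ μ) {η : ℝ} (hη : 0 < η) (m : ℕ) :
    ∫⁻ E in Icc (-(m : ℝ)) m, ENNReal.ofReal
      (min 1 (∫ t : ℝ, 1 / ((t : ℂ) - (E + η * Complex.I)) ∂μ).im) ≤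
      ENNReal.ofReal (3 * ∑' y, ‖ψ y‖ ^ 2 + 1) * Zn V η m +
        3 * ENNReal.ofReal (Real.pi * tail (box m) ψ) := by
  set A := 3 * ∑' y, ‖ψ y‖ ^ 2 + 1 with hA
  have hA0 : 0 ≤ A := by positivity
  have h1 : ∀ E : ℝ, ENNReal.ofReal (min 1 (∫ t : ℝ, 1 / ((t : ℂ) - (E + η * Complex.I)) ∂μ).im) ≤
      liminf (fun N => ENNReal.ofReal A * ENNReal.ofReal (ZZ N m V E η) +
        3 * ENNReal.ofReal (RR N m V ψ E η)) atTop := fun E => by
    obtain ⟨u, hu, he, hs⟩ := hμ.2 (E + η * Complex.I) (by simpa using hη)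
    have hsum : Summable fun x => (starRingEnd ℂ) (ψ x) * u x := by
      refine Summable.of_norm_bounded (hψ.add hu) fun x => ?_
      rw [norm_mul, Complex.norm_conj]
      nlinarith [sq_nonneg (‖ψ x‖ - ‖u x‖), norm_nonneg (ψ x), norm_nonneg (u x)]
    have t1 := (tendsto_const_nhds (x := (1 : ℝ))).min
      ((Complex.continuous_im.tendsto _).comp (hsum.hasSum.comp box_tendsto))
    have t2 := (tail_tendsto hu).const_mul 16
    have t3 := ((t2.const_mul 3).div_const η).add (t2.const_mul (∑' y, ‖u y‖ ^ 2)).sqrt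
    have t4 := ENNReal.tendsto_ofReal (t1.sub t3)
    simp only [mul_zero, zero_div, Real.sqrt_zero, add_zero, sub_zero, hs] at t4
    rw [← t4.liminf_eq]
    refine liminf_le_liminf (Eventually.of_forall fun N => ?_)
    have b1 := finite_bound hη hψ hu he N m
    have b2 := ZZ_nonneg N m V E hη
    have b3 : 0 ≤ RR N m V ψ E η := by unfold RR; positivity
    rw [← ENNReal.ofReal_mul hA0, ← ENNReal.ofReal_ofNat, ← ENNReal.ofReal_mul (by norm_num),
      ← ENNReal.ofReal_add (by positivity) (by positivity)]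
    refine ENNReal.ofReal_le_ofReal ?_
    simp only [Function.comp_apply]
    linarith
  have hm1 : ∀ N, Measurable fun E => ENNReal.ofReal (ZZ N m V E η) := fun N =>
    ((meas_ZZ N m η).comp (measurable_const.prodMk measurable_id)).ennreal_ofReal
  have hm2 : ∀ N, Measurable fun E => ENNReal.ofReal (RR N m V ψ E η) := fun N =>
    (meas_RR N m V ψ η).ennreal_ofReal
  refine (lintegral_mono h1).trans ((lintegral_liminf_le fun N =>
    ((hm1 N).const_mul _).add ((hm2 N).const_mul _)).trans ?_)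
  rw [Zn, ← liminf_affine _ ENNReal.ofReal_ne_top]
  refine liminf_le_liminf (Eventually.of_forall fun N => ?_)
  simp only [Pi.add_apply]
  rw [lintegral_add_left ((hm1 N).const_mul _), lintegral_const_mul _ (hm1 N),
    lintegral_const_mul _ (hm2 N)]
  gcongr
  exact (setLIntegral_le_lintegral _ _).trans (RR_mass hψ hη N m)

theorem sing_of_Zn {V : ℤ × ℤ → ℝ} {η : ℕ → ℝ} (hη : ∀ n, 0 < η n) (hη' : Tendsto η atTop (𝓝 0))
    (h : ∀ m, liminf (fun n => Zn V (η n) m) atTop = 0) {ψ : ℤ × ℤ → ℂ}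
    (hψ : Summable fun y => ‖ψ y‖ ^ 2) {μ : Measure ℝ} (hμ : IsSpectralMeasure V ψ μ) :
    μ ⟂ₘ volume := by
  have := hμ.1
  refine sing_of_liminf μ hη hη' fun m0 => le_antisymm ?_ zero_le
  have t1 := ENNReal.Tendsto.const_mul (a := 3)
    (ENNReal.tendsto_ofReal ((tail_tendsto hψ).const_mul Real.pi)) (Or.inr (by norm_num))
  simp only [mul_zero, ENNReal.ofReal_zero] at t1
  refine ge_of_tendsto t1 ((eventually_ge_atTop m0).mono fun m hm => ?_)
  have h1 := liminf_affine (fun n => Zn V (η n) m) (a := ENNReal.ofReal (3 * ∑' y, ‖ψ y‖ ^ 2 + 1))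
    ENNReal.ofReal_ne_top (3 * ENNReal.ofReal (Real.pi * tail (box m) ψ))
  rw [h m, mul_zero, zero_add] at h1
  rw [← h1]
  refine liminf_le_liminf (Eventually.of_forall fun n => le_trans
    (lintegral_mono_set (Icc_subset_Icc ?_ ?_)) (det_bound hψ hμ (hη n) m))
  · simpa using hm
  · simpa using hm

theorem small {γ : ℝ≥0} (hγ : γ ≠ 0) {δ : ℝ} (hδ : 0 < δ) : ∃ η > 0, η ≤ δ ∧
    ∀ (N : ℕ) (W : ℤ × ℤ → ℝ) (E : ℝ) (a : box N),
      ∫⁻ c, ENNReal.ofReal (min 1 (GN N (fun x => W x + c x) E η a a).im)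
        ∂(Measure.infinitePi fun _ : ℤ × ℤ => cauchyMeasure 0 γ) ≤ ENNReal.ofReal δ := by
  have hγ' : (0 : ℝ) < γ := by positivity
  obtain ⟨ε, hε, hε'⟩ : ∃ ε > 0, ε = γ * δ / 6 := ⟨_, by positivity, rfl⟩
  obtain ⟨n, hn⟩ := exists_cap (δ := ε * γ ^ 2 * δ / 6) (by positivity)
  refine ⟨min δ (ε * γ * δ / (6 * (n + 1))), by positivity, min_le_left _ _, fun N W E a => ?_⟩
  set η := min δ (ε * γ * δ / (6 * (n + 1))) with hηdef
  have hη : 0 < η := by positivity
  obtain ⟨f, S, hS, hf, hf0, hfe⟩ := hn a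
  have h1 := expect_le (HN_symm N) (fun x : box N => W x) hγ E hη hε a
    (f := fun x : box N => f x) hf (S := Finset.univ.filter fun x : box N => x.1 ∈ S)
    (fun x hx => hf0 x (by simpa using hx))
  have hm : Measurable fun v : box N → ℝ => ENNReal.ofReal (min 1 (Gx (HN N)
      (fun x => ((W x + v x : ℝ) : ℂ) - (E + η * Complex.I)) a a).im) := by
    have h0 : Measurable fun (v : box N → ℝ) (x : box N) =>
        ((W x + v x : ℝ) : ℂ) - (E + η * Complex.I) := measurable_pi_lambda _ fun x => by fun_prop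
    exact (measurable_const.min
      (Complex.measurable_im.comp ((meas_G (HN N) a a).comp h0))).ennreal_ofReal
  have h2 := lintegral_restrict_infinitePi (fun _ : ℤ × ℤ => cauchyMeasure 0 γ) (s := box N) hm
  refine h2.le.trans (h1.trans (ENNReal.ofReal_le_ofReal ?_))
  have h3 : ∑ x : box N, ∑ y : box N, Kf (HN N) (fun x : box N => f x) x y ^ 2 ≤
      ε * γ ^ 2 * δ / 6 := by
    refine le_trans (le_of_eq ?_) (hfe (box N))
    rw [← Finset.sum_coe_sort (box N)]
    exact Finset.sum_congr rfl fun x _ =>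
      Finset.sum_coe_sort (box N) fun y => (adj x y * (f y - f x)) ^ 2
  have h4 : ((Finset.univ.filter fun x : box N => x.1 ∈ S).card : ℝ) ≤ n + 1 := by
    have : (Finset.univ.filter fun x : box N => x.1 ∈ S).card ≤ S.card :=
      Finset.card_le_card_of_injOn Subtype.val (fun x hx => by simpa using hx)
        Subtype.val_injective.injOn
    exact_mod_cast (this.trans hS).trans (Nat.le_succ n)
  have h5 : η * (n + 1) ≤ ε * γ * δ / 6 := by
    have := min_le_right δ (ε * γ * δ / (6 * (n + 1)))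
    rw [← hηdef, le_div_iff₀ (by positivity)] at this
    linarith
  have h6 := (mul_le_mul_of_nonneg_left h4 hη.le).trans h5
  calc _ ≤ 2 / ε * (ε * γ ^ 2 * δ / 6 / γ ^ 2 + (ε * γ * δ / 6 + ε ^ 2) / γ) := by gcongr
    _ = δ := by
      rw [sq ε]
      nth_rewrite 4 [hε']
      field_simp
      norm_num

theorem expect_Zn {γ : ℝ≥0} {δ η : ℝ} (hη : 0 < η)
    (h : ∀ (N : ℕ) (W : ℤ × ℤ → ℝ) (E : ℝ) (a : box N),
      ∫⁻ c, ENNReal.ofReal (min 1 (GN N (fun x => W x + c x) E η a a).im)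
        ∂(Measure.infinitePi fun _ : ℤ × ℤ => cauchyMeasure 0 γ) ≤ ENNReal.ofReal δ)
    (W : ℤ × ℤ → ℝ) (m : ℕ) :
    ∫⁻ c, Zn (fun x => W x + c x) η m ∂(Measure.infinitePi fun _ : ℤ × ℤ => cauchyMeasure 0 γ) ≤
      (box m).card * volume (Icc (-(m : ℝ)) m) * ENNReal.ofReal δ := by
  have h0 : Measurable fun (p : (ℤ × ℤ → ℝ) × ℝ) => ((fun x => W x + p.1 x, p.2) :
      (ℤ × ℤ → ℝ) × ℝ) := (measurable_pi_lambda _ fun x => by fun_prop).prodMk measurable_snd
  have hm : ∀ N, Measurable fun p : (ℤ × ℤ → ℝ) × ℝ =>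
      ENNReal.ofReal (ZZ N m (fun x => W x + p.1 x) p.2 η) := fun N =>
    ((meas_ZZ N m η).comp h0).ennreal_ofReal
  refine (lintegral_liminf_le fun N => (hm N).lintegral_prod_right').trans
    (liminf_le_of_frequently_le' (Frequently.of_forall fun N => ?_))
  rw [lintegral_lintegral_swap (hm N).aemeasurable]
  refine (lintegral_mono (g := fun _ => (box m).card * ENNReal.ofReal δ) fun E => ?_).trans
    (le_of_eq ?_)
  · have e1 : ∀ c : ℤ × ℤ → ℝ, ENNReal.ofReal (ZZ N m (fun x => W x + c x) E η) =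
        ∑ a ∈ Finset.univ.filter (fun a : box N => a.1 ∈ box m),
          ENNReal.ofReal (min 1 (GN N (fun x => W x + c x) E η a a).im) := fun c => by
      rw [ZZ, ← Finset.sum_filter, ENNReal.ofReal_sum_of_nonneg fun a _ => ?_]
      rw [← GN_im N _ E hη]
      exact le_min zero_le_one (by positivity)
    simp only [e1]
    have e2 : ∀ a : box N, Measurable fun c : ℤ × ℤ → ℝ =>
        ENNReal.ofReal (min 1 (GN N (fun x => W x + c x) E η a a).im) := fun a =>
      (measurable_const.min (Complex.measurable_im.comp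
        (((meas_GN N η a a).comp h0).comp (measurable_id.prodMk measurable_const)))).ennreal_ofReal
    rw [lintegral_finsetSum _ fun a _ => e2 a]
    refine (Finset.sum_le_card_nsmul _ _ _ fun a _ => h N W E a).trans ?_
    rw [nsmul_eq_mul]
    gcongr
    exact Finset.card_le_card_of_injOn Subtype.val (fun x hx => by simpa using hx)
      Subtype.val_injective.injOn
  · rw [setLIntegral_const]; ring

theorem no_ac (ρ : Measure (ℤ × ℤ → ℝ)) [IsProbabilityMeasure ρ] {γ : ℝ≥0} (hγ : γ ≠ 0) :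
    ∀ᵐ p ∂(ρ.prod (Measure.infinitePi fun _ : ℤ × ℤ => cauchyMeasure 0 γ)),
      ∀ (ψ : ℤ × ℤ → ℂ), (Summable fun x => ‖ψ x‖ ^ 2) → ∀ μ : Measure ℝ,
        IsSpectralMeasure (fun x => p.1 x + p.2 x) ψ μ → μ ⟂ₘ volume := by
  choose η hη hη1 hη2 using fun n : ℕ => small hγ (δ := 1 / ((n : ℝ) + 1)) (by positivity)
  have hl : Tendsto η atTop (𝓝 0) :=
    squeeze_zero (fun n => (hη n).le) hη1 tendsto_one_div_add_atTop_nhds_zero_nat
  have h1 : ∀ m, ∀ᵐ p ∂(ρ.prod (Measure.infinitePi fun _ : ℤ × ℤ => cauchyMeasure 0 γ)),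
      liminf (fun n => Zn (fun x => p.1 x + p.2 x) (η n) m) atTop = 0 := fun m => by
    have h0 : Measurable fun (p : (ℤ × ℤ → ℝ) × (ℤ × ℤ → ℝ)) (x : ℤ × ℤ) => p.1 x + p.2 x :=
      measurable_pi_lambda _ fun x => by fun_prop
    have hm : Measurable fun p : (ℤ × ℤ → ℝ) × (ℤ × ℤ → ℝ) =>
        liminf (fun n => Zn (fun x => p.1 x + p.2 x) (η n) m) atTop :=
      Measurable.liminf fun n => (meas_Zn (η n) m).comp h0
    refine (Measure.ae_prod_iff_ae_ae (hm (measurableSet_singleton 0))).2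
      (Eventually.of_forall fun W => ?_)
    have hm' := hm.comp (measurable_prodMk_left (x := W))
    refine (lintegral_eq_zero_iff hm').1 (le_antisymm ?_ zero_le)
    refine (lintegral_liminf_le fun n => ((meas_Zn (η n) m).comp h0).comp
      (measurable_prodMk_left (x := W))).trans ?_
    have t1 := ENNReal.Tendsto.const_mul (a := (box m).card * volume (Icc (-(m : ℝ)) m))
      (ENNReal.tendsto_ofReal (tendsto_one_div_add_atTop_nhds_zero_nat (𝕜 := ℝ)))
      (Or.inr (ENNReal.mul_ne_top (ENNReal.natCast_ne_top _) measure_Icc_lt_top.ne))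
    rw [ENNReal.ofReal_zero, mul_zero] at t1
    rw [← t1.liminf_eq]
    exact liminf_le_liminf (Eventually.of_forall fun n => expect_Zn (hη n) (hη2 n) W m)
  filter_upwards [ae_all_iff.2 h1] with p hp ψ hψ μ hμ
  exact sing_of_Zn hη hl hp hψ hμ

end

end Vale.Agent.P365
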